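import Mathlib.Analysis.SpecialFunctions.Log.Basic

/-! One-dimensional chain lemma used in the construction of the Lyapunov function. -/

namespace Vale.Agent.P072

/-- Hypotheses on the family of walls at one level. -/
structure WallHyp (L T : Set (ℝ × ℝ)) (m Γ γ ρ D Db g R : ℝ) : Prop where
  hm : 2 ≤ m
  hΓ : 1 ≤ Γ
  hγ0 : 0 < γ
  hγ1 : γ ≤ 1
  hρ : 0 ≤ ρ
  hD : 1 ≤ D
  hDb : D ≤ Db
  hg0 : 0 < g
  hg : g * (2 * ρ + 2) ≤ γ
  hR : ρ + 1 + (m + Γ) * Db ≤ R
  sep : ∀ p ∈ L, ∀ q ∈ L, p.1 < q.1 →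
    γ ≤ q.1 - p.1 ∧ (m + Γ) * (1 + 2 * m) * D ≤ q.2 - p.2
  eqv : ∀ p ∈ L, ∀ q ∈ L, p.1 = q.1 → |p.2 - q.2| ≤ Γ * D
  near : ∀ p ∈ L, |p.1 - p.2| ≤ ρ
  sub : T ⊆ L
  sing : T.Subsingleton

/-- Admissible triples. -/
def Adm (L T : Set (ℝ × ℝ)) (m Γ D g R : ℝ) (s η D' : ℝ) : Prop :=
  (∀ p ∈ T, s ≤ p.1) ∧
    ((D' = D ∧ |s - η| ≤ R ∧ ∀ p ∈ L, (p.1 + g ≤ s ∧ p.2 + m * D ≤ η) ∨
        (s + g ≤ p.1 ∧ η + m * D ≤ p.2 ∧
          g * (p.2 - η) ≤ g * (m + Γ - 1) * D + D * (p.1 - s))) ∨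
      (D' = 2 * (m + Γ) * D ∧ ∃ p ∈ L, s = p.1 ∧ η = p.2 - (m + Γ) * D))

variable {L T : Set (ℝ × ℝ)} {m Γ γ ρ D Db g R : ℝ}

namespace WallHyp

theorem g_le (h : WallHyp L T m Γ γ ρ D Db g R) : 2 * g ≤ γ := by
  have := h.hg; have := h.hg0; have := h.hρ
  nlinarith

theorem muD (h : WallHyp L T m Γ γ ρ D Db g R) : (m + Γ) * D ≤ (m + Γ) * Db := by
  have := h.hm; have := h.hΓ
  exact mul_le_mul_of_nonneg_left h.hDb (by linarith)

theorem wall (_h : WallHyp L T m Γ γ ρ D Db g R) {p : ℝ × ℝ} (hp : p ∈ L)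
    (hT : ∀ q ∈ T, p.1 ≤ q.1) :
    Adm L T m Γ D g R p.1 (p.2 - (m + Γ) * D) (2 * (m + Γ) * D) :=
  ⟨hT, Or.inr ⟨rfl, p, hp, rfl, rfl⟩⟩

theorem tie (h : WallHyp L T m Γ γ ρ D Db g R) {p : ℝ × ℝ} (hp : p ∈ T) :
    Adm L T m Γ D g R p.1 (p.2 - (m + Γ) * D) (2 * (m + Γ) * D) :=
  h.wall (h.sub hp) fun q hq => by rw [h.sing hp hq]

theorem D_le (h : WallHyp L T m Γ γ ρ D Db g R) {s η D' : ℝ}
    (ha : Adm L T m Γ D g R s η D') : D ≤ D' ∧ D' ≤ 2 * (m + Γ) * D := by
  have := h.hm; have := h.hΓ; have := h.hD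
  rcases ha.2 with ⟨rfl, -⟩ | ⟨rfl, -⟩
  · constructor
    · exact le_rfl
    · nlinarith
  · constructor
    · nlinarith
    · exact le_rfl

theorem abs_le (h : WallHyp L T m Γ γ ρ D Db g R) {s η D' : ℝ}
    (ha : Adm L T m Γ D g R s η D') : |s - η| ≤ R := by
  rcases ha.2 with ⟨-, h1, -⟩ | ⟨-, p, hp, rfl, rfl⟩
  · exact h1
  · have h1 := _root_.abs_le.1 (h.near p hp)
    have h2 := h.muD
    have h3 := h.hR
    have := h.hm; have := h.hΓ; have := h.hD
    have h4 : 0 ≤ (m + Γ) * D := by positivity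
    rw [_root_.abs_le]; constructor <;> linarith [h1.1, h1.2]

theorem below (h : WallHyp L T m Γ γ ρ D Db g R) {s η D' : ℝ}
    (ha : Adm L T m Γ D g R s η D') {p : ℝ × ℝ} (hp : p ∈ L) (hlt : p.1 < s) :
    g ≤ s - p.1 ∧ m * D' ≤ η - p.2 := by
  have := h.hg0
  rcases ha.2 with ⟨rfl, -, h1⟩ | ⟨rfl, q, hq, rfl, rfl⟩
  · rcases h1 p hp with h2 | h2
    · constructor <;> linarith [h2.1, h2.2]
    · linarith [h2.1]
  · have h1 := h.sep p hp q hq hlt
    have := h.g_le
    constructor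
    · linarith [h1.1]
    · nlinarith [h1.2]

theorem above (h : WallHyp L T m Γ γ ρ D Db g R) {s η D' : ℝ}
    (ha : Adm L T m Γ D g R s η D') {p : ℝ × ℝ} (hp : p ∈ L) (hlt : s < p.1) :
    g ≤ p.1 - s ∧ m * D' ≤ p.2 - η := by
  have := h.hg0
  rcases ha.2 with ⟨rfl, -, h1⟩ | ⟨rfl, q, hq, rfl, rfl⟩
  · rcases h1 p hp with h2 | h2
    · linarith [h2.1]
    · constructor <;> linarith [h2.1, h2.2.1]
  · have h1 := h.sep q hq p hp hlt
    have := h.g_le
    have := h.hm; have := h.hΓ; have := h.hD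
    have h4 : 0 ≤ (m + Γ) * D := by positivity
    constructor
    · linarith [h1.1]
    · nlinarith [h1.2]

theorem level (h : WallHyp L T m Γ γ ρ D Db g R) {s η D' : ℝ}
    (ha : Adm L T m Γ D g R s η D') {p : ℝ × ℝ} (hp : p ∈ L) (heq : s = p.1) :
    |η - p.2| ≤ D' := by
  have := h.hg0
  rcases ha.2 with ⟨rfl, -, h1⟩ | ⟨rfl, q, hq, rfl, rfl⟩
  · rcases h1 p hp with h2 | h2
    · linarith [h2.1]
    · linarith [h2.1]
  · have h1 := _root_.abs_le.1 (h.eqv q hq p hp heq)
    have := h.hm; have := h.hΓ; have := h.hD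
    have h4 : 0 ≤ m * D := by positivity
    have h5 : 0 ≤ Γ * D := by positivity
    rw [_root_.abs_le]; constructor <;> nlinarith [h1.1, h1.2]

theorem gap (h : WallHyp L T m Γ γ ρ D Db g R) {s η D' : ℝ}
    (ha : Adm L T m Γ D g R s η D') {p : ℝ × ℝ} (hp : p ∈ T) : η ≤ p.2 - 1 := by
  have := h.hm; have := h.hΓ; have := h.hD; have := h.hg0
  have hmD : 1 ≤ m * D := by nlinarith
  rcases (ha.1 p hp).lt_or_eq with hlt | heq
  · have h1 := (h.above ha (h.sub hp) hlt).2
    have h2 := (h.D_le ha).1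
    nlinarith
  · rcases ha.2 with ⟨rfl, -, h1⟩ | ⟨rfl, q, hq, rfl, rfl⟩
    · rcases h1 p (h.sub hp) with h2 | h2
      · linarith [h2.1]
      · linarith [h2.1]
    · have h1 := _root_.abs_le.1 (h.eqv q hq p (h.sub hp) heq)
      nlinarith [h1.2]

theorem dense (h : WallHyp L T m Γ γ ρ D Db g R) (r : ℝ) (hr : ∀ p ∈ T, r ≤ p.1) :
    ∃ s η D', Adm L T m Γ D g R s η D' ∧ r - 2 * R ≤ s ∧ s ≤ r := by
  have hm := h.hm; have hΓ := h.hΓ; have hD := h.hD; have hg0 := h.hg0
  have hg := h.g_le; have hγ1 := h.hγ1; have hR := h.hR; have hρ := h.hρ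
  have hmu := h.muD
  have h4 : 0 ≤ m * D := by positivity
  have h5 : 0 ≤ Γ * D := by positivity
  have h6 : m * D + Γ * D = (m + Γ) * D := by ring
  by_cases hw : ∃ p ∈ L, r - 2 * R ≤ p.1 ∧ p.1 ≤ r
  · obtain ⟨p, hp, h1, h2⟩ := hw
    exact ⟨_, _, _, h.wall hp fun q hq => h2.trans (hr q hq), h1, h2⟩
  · push Not at hw
    refine ⟨r - R, r - R, D, ⟨fun p hp => by linarith [hr p hp], Or.inl ⟨rfl, by simp; linarith, ?_⟩⟩,
      by linarith, by linarith⟩
    intro p hp
    have hn := _root_.abs_le.1 (h.near p hp)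
    by_cases hc : r - 2 * R ≤ p.1
    · right
      have h1 := hw p hp hc
      refine ⟨by linarith, by linarith [hn.1, hn.2], ?_⟩
      have h7 : p.2 - (r - R) ≤ 2 * (p.1 - (r - R)) := by linarith [hn.1, hn.2]
      have h8 : 0 ≤ p.1 - (r - R) := by linarith
      have h9 : g * (p.2 - (r - R)) ≤ g * (2 * (p.1 - (r - R))) :=
        mul_le_mul_of_nonneg_left h7 hg0.le
      have h10 : 0 ≤ g * (m + Γ - 1) * D := by
        have : 0 ≤ m + Γ - 1 := by linarith
        positivity
      nlinarith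
    · left
      push Not at hc
      constructor <;> linarith [hn.1, hn.2]

theorem succ (h : WallHyp L T m Γ γ ρ D Db g R) {s η D' : ℝ}
    (ha : Adm L T m Γ D g R s η D') (hT : ∀ p ∈ T, s < p.1) :
    ∃ s' η' D'', Adm L T m Γ D g R s' η' D'' ∧ s + g ≤ s' ∧ η' ≤ η + D' := by
  have hm := h.hm; have hΓ := h.hΓ; have hD := h.hD; have hg0 := h.hg0
  have hg := h.g_le; have hγ1 := h.hγ1; have hR := h.hR; have hρ := h.hρ
  have hmu := h.muD; have hDb := h.hDb; have hγ0 := h.hγ0
  have h4 : 0 ≤ m * D := by positivity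
  have h5 : 0 ≤ Γ * D := by positivity
  have h6 : m * D + Γ * D = (m + Γ) * D := by ring
  have h7 : D ≤ (m + Γ) * Db := by nlinarith
  rcases ha.2 with ⟨rfl, habs, h1⟩ | ⟨rfl, q, hq, rfl, rfl⟩
  · -- the non-wall case
    have habs' := _root_.abs_le.1 habs
    by_cases hc : ∃ p ∈ L, s < p.1 ∧ (p.1 < s + 2 * g ∨ p.2 < η + (m + 1) * D')
    · -- jump to a wall
      have key : ∀ p ∈ L, s < p.1 → (p.1 < s + 2 * g ∨ p.2 < η + (m + 1) * D') →
          (∀ q ∈ T, p.1 ≤ q.1) →
          ∃ s' η' D'', Adm L T m Γ D' g R s' η' D'' ∧ s + g ≤ s' ∧ η' ≤ η + D' := by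
        intro p hp hlt hor hTp
        refine ⟨_, _, _, h.wall hp hTp, ?_, ?_⟩
        · linarith [(h.above ha hp hlt).1]
        · rcases hor with h2 | h2
          · rcases h1 p hp with h3 | h3
            · linarith [h3.1]
            · have h8 : D' * (p.1 - s) ≤ D' * (2 * g) :=
                mul_le_mul_of_nonneg_left (by linarith) (by linarith)
              have h9 : g * (p.2 - η) ≤ g * ((m + Γ + 1) * D') := by nlinarith [h3.2.2]
              have h10 := le_of_mul_le_mul_left h9 hg0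
              nlinarith
          · nlinarith
      obtain ⟨p, hp, hlt, hor⟩ := hc
      by_cases hTp : ∀ q ∈ T, p.1 ≤ q.1
      · exact key p hp hlt hor hTp
      · push Not at hTp
        obtain ⟨q, hq, hqp⟩ := hTp
        refine key q (h.sub hq) (hT q hq) ?_ fun q' hq' => by rw [h.sing hq hq']
        rcases hor with h2 | h2
        · left; linarith
        · right
          have h3 := (h.sep q (h.sub hq) p hp hqp).2
          have : 0 ≤ (m + Γ) * (1 + 2 * m) * D' := by positivity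
          linarith
    · push Not at hc
      have hT' : ∀ p ∈ T, s + g ≤ p.1 := fun p hp => by
        linarith [(hc p (h.sub hp) (hT p hp)).1]
      by_cases hbig : η + D' - (s + g) ≤ R
      · refine ⟨s + g, η + D', D', ⟨hT', Or.inl ⟨rfl, ?_, ?_⟩⟩, le_rfl, le_rfl⟩
        · rw [_root_.abs_le]; constructor <;> linarith [habs'.1, habs'.2]
        · intro p hp
          rcases h1 p hp with h3 | h3
          · left; constructor <;> linarith [h3.1, h3.2]
          · right
            have h8 := hc p hp (by linarith [h3.1])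
            refine ⟨by linarith [h8.1], by nlinarith [h8.2], ?_⟩
            nlinarith [h3.2.2]
      · push Not at hbig
        refine ⟨s + g, η, D', ⟨hT', Or.inl ⟨rfl, ?_, ?_⟩⟩, le_rfl, by linarith⟩
        · rw [_root_.abs_le]; constructor <;> nlinarith [habs'.1, habs'.2]
        · intro p hp
          rcases h1 p hp with h3 | h3
          · left; constructor <;> linarith [h3.1, h3.2]
          · right
            have h8 := hc p hp (by linarith [h3.1])
            have hn := _root_.abs_le.1 (h.near p hp)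
            refine ⟨by linarith [h8.1], h3.2.1, ?_⟩
            have h9 : (m + Γ) * Db ≥ D' := h7
            have h10 : p.2 - η ≤ p.1 - s := by linarith [hn.1, hn.2]
            have h11 : 0 ≤ p.1 - s := by linarith [h3.1]
            have h12 : g * (p.2 - η) ≤ g * (p.1 - s) := mul_le_mul_of_nonneg_left h10 hg0.le
            have h13 : g * (p.1 - s) ≤ D' * (p.1 - s) :=
              mul_le_mul_of_nonneg_right (by linarith) h11
            have h14 : g * D' ≤ g * (m + Γ - 1) * D' := by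
              have : 0 ≤ g * D' * (m + Γ - 2) := by
                have : 0 ≤ m + Γ - 2 := by linarith
                positivity
              nlinarith
            nlinarith
  · -- the wall case
    have hn := _root_.abs_le.1 (h.near q hq)
    refine ⟨q.1 + g, q.2 + (m + Γ) * D, D, ⟨fun p hp => ?_, Or.inl ⟨rfl, ?_, ?_⟩⟩, le_rfl,
      by linarith⟩
    · linarith [(h.sep q hq p (h.sub hp) (hT p hp)).1]
    · rw [_root_.abs_le]; constructor <;> linarith [hn.1, hn.2]
    · intro p hp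
      rcases lt_trichotomy p.1 q.1 with hlt | heq | hgt
      · left
        have h3 := h.sep p hp q hq hlt
        have : 0 ≤ (m + Γ) * (1 + 2 * m) * D := by positivity
        constructor <;> linarith [h3.1, h3.2]
      · left
        have h3 := _root_.abs_le.1 (h.eqv p hp q hq heq)
        constructor <;> linarith [h3.1, h3.2]
      · right
        have h3 := h.sep q hq p hp hgt
        have hn' := _root_.abs_le.1 (h.near p hp)
        have h8 : (m + Γ) * D + m * D ≤ (m + Γ) * (1 + 2 * m) * D := by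
          have : 0 ≤ m * D * (2 * m + 2 * Γ - 1) := by
            have : 0 ≤ 2 * m + 2 * Γ - 1 := by linarith
            positivity
          nlinarith
        refine ⟨by linarith [h3.1], by linarith [h3.2], ?_⟩
        have h9 : p.2 - (q.2 + (m + Γ) * D) ≤ (p.1 - q.1) + 2 * ρ := by
          linarith [hn.1, hn.2, hn'.1, hn'.2]
        have h10 : g * (p.2 - (q.2 + (m + Γ) * D)) ≤ g * ((p.1 - q.1) + 2 * ρ) :=
          mul_le_mul_of_nonneg_left h9 hg0.le
        have hΔ : γ ≤ p.1 - q.1 := h3.1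
        have h11 : g * ((p.1 - q.1) + 2 * ρ) ≤ p.1 - q.1 := by
          have := h.hg
          have h12 : g * (p.1 - q.1 - γ) ≤ p.1 - q.1 - γ := by
            have : 0 ≤ p.1 - q.1 - γ := by linarith
            nlinarith
          nlinarith
        have h13 : p.1 - q.1 ≤ D * (p.1 - q.1) := by nlinarith
        have h14 : g * D ≤ g * (m + Γ - 1) * D := by
          have : 0 ≤ g * D * (m + Γ - 2) := by
            have : 0 ≤ m + Γ - 2 := by linarith
            positivity
          nlinarith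
        nlinarith

end WallHyp

end Vale.Agent.P072
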