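import Vale.Agent.P072.Family

/-! The Lyapunov function. -/

namespace Vale.Agent.P072

open Finset Real

/-- A convex function given as a supremum of affine functions whose near-maximisers are good. -/
structure Lyap (ι : Type*) [Fintype ι] (U δ : ℝ) where
  Φ : (ι → ℝ) → ℝ
  Y : Set ((ι → ℝ) × ℝ)
  g : ℝ
  R : ℝ
  lam : ℝ
  B : ℝ
  ζ : ℝ
  g_pos : 0 < g
  ζ_pos : 0 < ζ
  le : ∀ p ∈ Y, ∀ x : ι → ℝ, (∀ i, 0 < x i) → val p x ≤ Φ x
  near : ∀ x : ι → ℝ, (∀ i, 0 < x i) → ∀ ρ > 0, ∃ p ∈ Y, Φ x - ρ ≤ val p x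
  good : ∀ x : ι → ℝ, (∀ i, 0 < x i) → ∃ ρ > 0, ∀ p ∈ Y, Φ x - ρ ≤ val p x →
    Good U δ p.1 x ∧ ∀ i, |log (x i) - lam * p.1 i| ≤ R
  gap : ∀ p ∈ Y, ∀ u : ι → ℤ, (∀ i, |(u i : ℝ)| ≤ U) → 0 < dot (fun i => (u i : ℝ)) p.1 →
    g ≤ dot (fun i => (u i : ℝ)) p.1
  lower : ∀ x : ι → ℝ, (∀ i, 0 < x i) → ∑ i, x i ≤ Φ x + B
  small : ∀ ρ > 0, ∃ η > 0, ∀ x : ι → ℝ, (∀ i, 0 < x i) → (∀ i, x i ≤ η) → -ρ ≤ Φ x
  neg : ∀ x : ι → ℝ, (∀ i, 0 < x i) → (∀ i, x i ≤ ζ) → Φ x ≤ -∑ i, x i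

variable {ι : Type*} [Fintype ι] {n : ℕ} {P : Par n} {lam : ℝ}

theorem sum_range_equiv (σ : ι ≃ Fin n) (f : ℕ → ℝ) :
    ∑ j ∈ range n, f j = ∑ i, f (σ i) := by
  rw [sum_range, ← Equiv.sum_comp σ]

omit [Fintype ι] in
theorem exists_flat (σ : ι ≃ Fin n) (hlam : 0 ≤ lam) (r : ℝ) :
    ∃ a c : ℝ, r - 2 * P.R n ≤ a ∧ a ≤ r ∧ (fun _ => a, c) ∈ Cand ι P lam ∧
      c ≤ n * exp (lam * (a + P.R n)) := by
  have hR := P.R_nonneg n
  have hv : Valid P 0 (fun _ => r) (fun _ => r) (fun _ => 1) := ⟨rfl, fun k hk => by omega⟩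
  rcases Nat.eq_zero_or_pos n with rfl | hn
  · exact ⟨r, 0, by linarith, le_rfl, ⟨σ, fun _ => r, fun _ => r, fun _ => 1, hv, by simp⟩,
      by simp⟩
  · have W := hv.wallHyp le_rfl hn (Nat.zero_le _)
    obtain ⟨a, b, c, ha, h1, h2⟩ := W.dense r (by rintro p ⟨j, hj, rfl⟩; omega)
    obtain ⟨s', e', D', hv', -, h3⟩ := hv.replace hn ha
    have h4 := abs_le.1 (W.abs_le ha)
    have h5 : P.R (0 + 1) ≤ P.R n := P.R_mono hn
    refine ⟨a, ∑ j ∈ range n, exp (lam * e' j), by linarith, h2, ⟨σ, s', e', D', hv', ?_⟩, ?_⟩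
    · congr 1
      funext i
      exact (h3 _ (Nat.zero_le _) (σ i).2).1.symm
    · refine (sum_le_card_nsmul _ _ (exp (lam * (a + P.R n))) fun j hj => ?_).trans (by simp)
      refine exp_le_exp.2 (mul_le_mul_of_nonneg_left ?_ hlam)
      linarith [(h3 j (Nat.zero_le _) (mem_range.1 hj)).2, h4.1]

theorem affine_le_exp {lam x : ℝ} (hlam : 0 < lam) (hx : 0 < x) (y R : ℝ) :
    y * x - exp (lam * (y - R)) ≤ x * R + x / lam * log (x / lam) := by
  set z := x / lam with hz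
  have hz0 : 0 < z := div_pos hx hlam
  have hxz : x = lam * z := by rw [hz]; field_simp
  have h1 := add_one_le_exp (lam * (y - R) - log z)
  rw [exp_sub, exp_log hz0, le_div_iff₀ hz0] at h1
  rw [hxz]
  nlinarith

theorem val_le (hlam : 0 < lam) {p : (ι → ℝ) × ℝ} (hp : p ∈ Cand ι P lam) {x : ι → ℝ}
    (hx : ∀ i, 0 < x i) :
    val p x ≤ ∑ i, (x i * P.R n + x i / lam * log (x i / lam)) := by
  obtain ⟨σ, s, e, D, hv, rfl⟩ := hp
  simp only [val, dot]
  rw [sum_range_equiv σ, ← sum_sub_distrib]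
  refine sum_le_sum fun i _ => le_trans ?_ (affine_le_exp hlam (hx i) (s (σ i)) (P.R n))
  have h1 := abs_le.1 ((hv.inv le_rfl n le_rfl).near (σ i) (σ i).2)
  have h2 : lam * (s (σ i) - P.R n) ≤ lam * e (σ i) :=
    mul_le_mul_of_nonneg_left (by linarith [h1.2]) hlam.le
  linarith [exp_le_exp.2 h2]

theorem pair_equiv (σ : ι ≃ Fin n) (u : ι → ℤ) (s : ℕ → ℝ) :
    pair n (fun j => if h : j < n then u (σ.symm ⟨j, h⟩) else 0) s =
      dot (fun i => (u i : ℝ)) fun i => s (σ i) := by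
  rw [pair, sum_range_equiv σ, dot]
  refine sum_congr rfl fun i _ => ?_
  simp

theorem exists_lyap (ι : Type*) [Fintype ι] {U : ℝ} (hU : 1 ≤ U) (δ : ℝ) :
    Nonempty (Lyap ι U δ) := by
  classical
  set n := Fintype.card ι with hn
  let σ0 : ι ≃ Fin n := Fintype.equivFin ι
  obtain ⟨P, hPU, hPΛ⟩ := exists_par n U hU
  have hg := P.g_pos n
  have hR := P.R_nonneg n
  have hΓ := P.Γ_one
  set lam : ℝ := 1 + |δ| + 2 * n / P.g n + 2 * (n + n * ((4 * P.R n + 1) * (2 * n / P.g n))) +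
    2 * (4 * P.R n + 1 + 1) with hlam
  have a1 : 0 ≤ 2 * n / P.g n := by positivity
  have a2 : 0 ≤ 2 * (n + n * ((4 * P.R n + 1) * (2 * n / P.g n))) := by positivity
  have a3 : 0 ≤ 2 * (4 * P.R n + 1 + 1) := by positivity
  have a4 := abs_nonneg δ
  have a5 := le_abs_self δ
  have hl0 : 0 < lam := by linarith
  have hl1 : 2 * n / P.g n ≤ lam := by linarith
  have hl2 : 2 * (n + n * ((4 * P.R n + 1) * (2 * n / P.g n))) ≤ lam := by linarith
  have hl3 : 2 * (4 * P.R n + 1 + 1) ≤ lam := by linarith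
  have hl4 : δ ≤ lam := by linarith
  clear_value lam
  let Φ : (ι → ℝ) → ℝ := fun x => sSup ((fun p => val p x) '' Cand ι P lam)
  have hbdd : ∀ x : ι → ℝ, (∀ i, 0 < x i) → BddAbove ((fun p => val p x) '' Cand ι P lam) :=
    fun x hx => ⟨_, by rintro _ ⟨p, hp, rfl⟩; exact val_le hl0 hp hx⟩
  have hne : (Cand ι P lam).Nonempty := by
    obtain ⟨a, c, -, -, h, -⟩ := exists_flat (P := P) σ0 hl0.le 0
    exact ⟨_, h⟩
  have hle : ∀ p ∈ Cand ι P lam, ∀ x : ι → ℝ, (∀ i, 0 < x i) → val p x ≤ Φ x :=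
    fun p hp x hx => le_csSup (hbdd x hx) ⟨p, hp, rfl⟩
  have hbound : ∀ (σ : ι ≃ Fin n) (u : ι → ℤ), (∀ i, |(u i : ℝ)| ≤ U) → ∀ j,
      |((if h : j < n then u (σ.symm ⟨j, h⟩) else 0 : ℤ) : ℝ)| ≤ P.U n := by
    intro σ u hu j
    rw [hPU]
    split_ifs
    · exact hu _
    · simp; linarith
  refine ⟨⟨Φ, Cand ι P lam, P.g n, lam * ((P.Γ + 2) * P.Db n) + lam * P.R n, lam,
    n * exp (lam * (2 * P.R n + 1 + P.R n)), lam * exp (-(lam * (P.R n + 1))), hg,
    by positivity, hle, ?_, ?_, ?_, ?_, ?_, ?_⟩⟩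
  · intro x hx ρ hρ
    obtain ⟨_, ⟨p, hp, rfl⟩, h⟩ := exists_lt_of_lt_csSup (hne.image fun p => val p x)
      (show Φ x - ρ < Φ x by linarith)
    exact ⟨p, hp, h.le⟩
  · intro x hx
    obtain ⟨ρ, hρ, hρx⟩ := exists_pos_le (fun i => P.g n / 2 * x i) fun i => by
      have := hx i; positivity
    refine ⟨ρ, hρ, ?_⟩
    rintro _ ⟨σ, s, e, D, hv, rfl⟩ hp
    have hI := hv.inv le_rfl n le_rfl
    have hnear := near_max hv hx hρx hl1 hl2 hl3 fun q hq => by linarith [hle q hq x hx]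
    have hD := hI.D_one
    refine ⟨fun u hu hpos => ?_, fun i => ?_⟩
    · rw [← pair_equiv σ] at hpos
      have h1 := (hI.pos _ (hbound σ u hu) hpos).2
      rw [pair_equiv σ, hPΛ] at h1
      have h2 : ∑ i, (u i : ℝ) * (lam * e (σ i) - log (x i)) ≤
          n * (U * (lam * ((P.Γ + 2) * D n))) := by
        refine (sum_le_card_nsmul _ _ (U * (lam * ((P.Γ + 2) * D n))) fun i _ => ?_).trans
          (by simp [hn])
        refine (le_abs_self _).trans ?_
        rw [abs_mul, abs_sub_comm]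
        exact mul_le_mul (hu i) (hnear i) (abs_nonneg _) (by linarith)
      have h3 : ∑ i, (u i : ℝ) * (lam * e (σ i) - log (x i)) =
          lam * dot (fun i => (u i : ℝ)) (fun i => e (σ i)) -
            dot (fun i => (u i : ℝ)) fun i => log (x i) := by
        simp only [dot, mul_sum, ← sum_sub_distrib]
        exact sum_congr rfl fun i _ => by ring
      have h4 := mul_le_mul_of_nonneg_left h1 hl0.le
      have h5 : lam * 1 ≤ lam * D n := mul_le_mul_of_nonneg_left hD hl0.le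
      have h6 : lam * ((n * U * (P.Γ + 2) + 2) * D n) =
          n * (U * (lam * ((P.Γ + 2) * D n))) + 2 * (lam * D n) := by ring
      linarith
    · have h1 := abs_le.1 (hnear i)
      have h2 := abs_le.1 (hI.near (σ i) (σ i).2)
      have h3 : lam * ((P.Γ + 2) * D n) ≤ lam * ((P.Γ + 2) * P.Db n) :=
        mul_le_mul_of_nonneg_left (mul_le_mul_of_nonneg_left hI.D_le (by linarith)) hl0.le
      have h4 := mul_le_mul_of_nonneg_left h2.1 hl0.le
      have h5 := mul_le_mul_of_nonneg_left h2.2 hl0.le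
      rw [abs_le]
      rw [mul_sub] at h4 h5
      constructor <;> simp only <;> linarith [h1.1, h1.2]
  · rintro _ ⟨σ, s, e, D, hv, rfl⟩ u hu hpos
    rw [← pair_equiv σ] at hpos ⊢
    exact ((hv.inv le_rfl n le_rfl).pos _ (hbound σ u hu) hpos).1
  · intro x hx
    obtain ⟨a, c, h1, h2, h3, h4⟩ := exists_flat (P := P) σ0 hl0.le (2 * P.R n + 1)
    have h5 := hle _ h3 x hx
    simp only [val, dot, ← mul_sum] at h5
    have h6 : 0 ≤ ∑ i, x i := sum_nonneg fun i _ => (hx i).le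
    have h7 : (n : ℝ) * exp (lam * (a + P.R n)) ≤ n * exp (lam * (2 * P.R n + 1 + P.R n)) :=
      mul_le_mul_of_nonneg_left
        (exp_le_exp.2 (mul_le_mul_of_nonneg_left (by linarith) hl0.le)) (Nat.cast_nonneg n)
    have h8 : 1 * ∑ i, x i ≤ a * ∑ i, x i := mul_le_mul_of_nonneg_right (by linarith) h6
    linarith
  · intro ρ hρ
    set r : ℝ := min 0 (log (ρ / (2 * (n + 1))) / lam - P.R n) with hr
    have hr0 : r ≤ 0 := min_le_left _ _
    have hr1 : r ≤ log (ρ / (2 * (n + 1))) / lam - P.R n := min_le_right _ _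
    obtain ⟨a, c, h1, h2, h3, h4⟩ := exists_flat (P := P) σ0 hl0.le r
    have hpos : 0 < 2 * P.R n - r + 1 := by linarith
    refine ⟨ρ / (2 * (n + 1) * (2 * P.R n - r + 1)), by positivity, fun x hx hxη => ?_⟩
    have h5 := hle _ h3 x hx
    simp only [val, dot, ← mul_sum] at h5
    have h6 : 0 ≤ ∑ i, x i := sum_nonneg fun i _ => (hx i).le
    have h7 : exp (lam * (a + P.R n)) ≤ ρ / (2 * (n + 1)) := by
      rw [← le_log_iff_exp_le (by positivity), ← le_div_iff₀' hl0]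
      linarith
    have h8 : (n : ℝ) * exp (lam * (a + P.R n)) ≤ ρ / 2 := by
      refine (mul_le_mul_of_nonneg_left h7 (Nat.cast_nonneg n)).trans ?_
      rw [mul_div_assoc', div_le_div_iff₀ (by positivity) (by positivity)]
      nlinarith
    have h9 : ∑ i, x i ≤ n * (ρ / (2 * (n + 1) * (2 * P.R n - r + 1))) :=
      (sum_le_card_nsmul _ _ _ fun i _ => hxη i).trans (by simp [hn])
    have h10 : (2 * P.R n - r + 1) * (n * (ρ / (2 * (n + 1) * (2 * P.R n - r + 1)))) ≤ ρ / 2 := by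
      rw [mul_div_assoc', mul_div_assoc', div_le_div_iff₀ (by positivity) (by positivity)]
      have : 0 ≤ (2 * P.R n - r + 1) * ρ := by positivity
      nlinarith
    have h11 := mul_le_mul_of_nonneg_left h9 hpos.le
    have h12 : -(2 * P.R n - r + 1) * ∑ i, x i ≤ a * ∑ i, x i :=
      mul_le_mul_of_nonneg_right (by linarith) h6
    linarith
  · intro x hx hxζ
    refine csSup_le (hne.image _) ?_
    rintro _ ⟨p, hp, rfl⟩
    refine (val_le hl0 hp hx).trans ?_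
    rw [← sum_neg_distrib]
    refine sum_le_sum fun i _ => ?_
    have h0 := hx i
    have h1 : log (x i / lam) ≤ -(lam * (P.R n + 1)) := by
      rw [log_le_iff_le_exp (by positivity), div_le_iff₀' hl0]
      exact hxζ i
    have h2 : x i / lam * log (x i / lam) ≤ x i / lam * -(lam * (P.R n + 1)) :=
      mul_le_mul_of_nonneg_left h1 (by positivity)
    have h3 : x i / lam * -(lam * (P.R n + 1)) = -(x i * (P.R n + 1)) := by field_simp
    linarith

end Vale.Agent.P072
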