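import Vale.Agent.P072.Defs
import Vale.Agent.P072.Lyap

/-! The cut lemma for weakly reversible networks. -/

namespace Vale.Agent.P072

open Finset Real MeasureTheory

variable {d : ℕ}

theorem exists_crossing (N : Network d) (φ : (Fin d → ℕ) → ℝ) (s : ℝ) {a b : Fin d → ℕ}
    (h : Relation.TransGen (fun y y' => (y, y') ∈ N.R) a b) (ha : s < φ a) (hb : φ b ≤ s) :
    ∃ r ∈ N.R, s < φ r.1 ∧ φ r.2 ≤ s := by
  induction h with
  | single h => exact ⟨_, h, ha, hb⟩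
  | @tail b c _ h ih =>
    by_cases hb' : φ b ≤ s
    · exact ih hb'
    · exact ⟨_, h, not_le.1 hb', hb⟩

theorem cut (N : Network d) (hN : N.WeaklyReversible) (a : (Fin d → ℕ) × (Fin d → ℕ) → ℝ)
    (ha : ∀ r ∈ N.R, 0 ≤ a r) (φ : (Fin d → ℕ) → ℝ)
    (h : ∀ r ∈ N.R, ∀ r' ∈ N.R, φ r.1 < φ r'.1 → 2 * N.R.card * a r ≤ a r')
    {r0 : (Fin d → ℕ) × (Fin d → ℕ)} (hr0 : r0 ∈ N.R) :
    ∑ r ∈ N.R, a r * (φ r.2 - φ r.1) ≤ -(a r0 * |φ r0.2 - φ r0.1|) / 3 := by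
  classical
  have claim : ∀ r ∈ N.R, max (φ r.2 - φ r.1) 0 ≤
      ∑ r' ∈ N.R.filter (fun r' => φ r.1 < φ r'.1), max (φ r'.1 - φ r'.2) 0 := by
    intro r hr
    have hsub : Set.Ico (φ r.1) (φ r.2) ⊆
        ⋃ r' ∈ N.R.filter (fun r' => φ r.1 < φ r'.1), Set.Ico (φ r'.2) (φ r'.1) := by
      intro s hs
      obtain ⟨r', hr', h1, h2⟩ := exists_crossing N φ s (hN r hr) hs.2 hs.1
      exact Set.mem_biUnion (mem_coe.2 (mem_filter.2 ⟨hr', hs.1.trans_lt h1⟩)) ⟨h2, h1⟩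
    have h1 := measureReal_mono (μ := volume) hsub
      (measure_biUnion_ne_top (Finset.finite_toSet _) fun _ _ => measure_Ico_lt_top.ne)
    have h2 := measureReal_biUnion_finset_le (μ := volume)
      (N.R.filter (fun r' => φ r.1 < φ r'.1)) (fun r' => Set.Ico (φ r'.2) (φ r'.1))
    simp only [Real.volume_real_Ico] at h1 h2
    exact h1.trans h2
  set Up := ∑ r ∈ N.R, a r * max (φ r.2 - φ r.1) 0 with hUp
  set Dn := ∑ r ∈ N.R, a r * max (φ r.1 - φ r.2) 0 with hDn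
  have h1 : ∀ r ∈ N.R, 2 * N.R.card * (a r * max (φ r.2 - φ r.1) 0) ≤ Dn := by
    intro r hr
    have h2 : 0 ≤ 2 * N.R.card * a r := by have := ha r hr; positivity
    calc 2 * N.R.card * (a r * max (φ r.2 - φ r.1) 0)
        = 2 * N.R.card * a r * max (φ r.2 - φ r.1) 0 := by ring
      _ ≤ 2 * N.R.card * a r *
          ∑ r' ∈ N.R.filter (fun r' => φ r.1 < φ r'.1), max (φ r'.1 - φ r'.2) 0 :=
        mul_le_mul_of_nonneg_left (claim r hr) h2
      _ ≤ ∑ r' ∈ N.R.filter (fun r' => φ r.1 < φ r'.1), a r' * max (φ r'.1 - φ r'.2) 0 := by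
        rw [mul_sum]
        exact sum_le_sum fun r' hr' => mul_le_mul_of_nonneg_right
          (h r hr r' (mem_filter.1 hr').1 (mem_filter.1 hr').2) (le_max_right _ _)
      _ ≤ Dn := sum_le_sum_of_subset_of_nonneg (filter_subset _ _) fun r' hr' _ =>
        mul_nonneg (ha r' hr') (le_max_right _ _)
  have hc : (0 : ℝ) < N.R.card := by exact_mod_cast card_pos.2 ⟨r0, hr0⟩
  have h2 : 2 * Up ≤ Dn := by
    have h3 := sum_le_card_nsmul _ _ _ h1
    rw [← mul_sum, nsmul_eq_mul] at h3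
    have h4 : (N.R.card : ℝ) * (2 * Up) ≤ N.R.card * Dn := by linarith
    exact le_of_mul_le_mul_left h4 hc
  have h3 : ∑ r ∈ N.R, a r * (φ r.2 - φ r.1) = Up - Dn := by
    rw [hUp, hDn, ← sum_sub_distrib]
    refine sum_congr rfl fun r _ => ?_
    rw [← mul_sub]
    congr 1
    rcases le_total (φ r.1) (φ r.2) with h5 | h5
    · rw [max_eq_left (by linarith), max_eq_right (by linarith)]; ring
    · rw [max_eq_right (by linarith), max_eq_left (by linarith)]; ring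
  have h4 : a r0 * |φ r0.2 - φ r0.1| ≤ Up + Dn := by
    rw [hUp, hDn, ← sum_add_distrib]
    refine le_trans (le_of_eq ?_) (single_le_sum
      (f := fun r => a r * max (φ r.2 - φ r.1) 0 + a r * max (φ r.1 - φ r.2) 0)
      (fun r hr => add_nonneg (mul_nonneg (ha r hr) (le_max_right _ _))
        (mul_nonneg (ha r hr) (le_max_right _ _))) hr0)
    rw [← mul_add]
    congr 1
    rcases le_total (φ r0.1) (φ r0.2) with h5 | h5
    · rw [max_eq_left (by linarith), max_eq_right (by linarith), abs_of_nonneg (by linarith)]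
      ring
    · rw [max_eq_right (by linarith), max_eq_left (by linarith), abs_of_nonpos (by linarith)]
      ring
  linarith

/-- Admissible rate vectors. -/
def Network.Rates (N : Network d) (ε : ℝ) (k : (Fin d → ℕ) × (Fin d → ℕ) → ℝ) : Prop :=
  ∀ r ∈ N.R, ε ≤ k r ∧ k r ≤ ε⁻¹

/-- A bound for all stoichiometric coefficients. -/
noncomputable def Network.bound (N : Network d) : ℝ :=
  1 + ∑ r ∈ N.R, ∑ i, ((r.1 i : ℝ) + (r.2 i : ℝ))

theorem Network.one_le_bound (N : Network d) : 1 ≤ N.bound := by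
  have : 0 ≤ ∑ r ∈ N.R, ∑ i, ((r.1 i : ℝ) + (r.2 i : ℝ)) := by positivity
  unfold Network.bound; linarith

theorem Network.le_bound (N : Network d) {r : (Fin d → ℕ) × (Fin d → ℕ)} (hr : r ∈ N.R)
    (i : Fin d) : (r.1 i : ℝ) + (r.2 i : ℝ) ≤ N.bound := by
  have h1 : (r.1 i : ℝ) + (r.2 i : ℝ) ≤ ∑ i, ((r.1 i : ℝ) + (r.2 i : ℝ)) :=
    single_le_sum (f := fun i => (r.1 i : ℝ) + (r.2 i : ℝ)) (fun j _ => by positivity)
      (mem_univ i)
  have h2 : ∑ i, ((r.1 i : ℝ) + (r.2 i : ℝ)) ≤ ∑ r ∈ N.R, ∑ i, ((r.1 i : ℝ) + (r.2 i : ℝ)) :=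
    single_le_sum (f := fun r : (Fin d → ℕ) × (Fin d → ℕ) => ∑ i, ((r.1 i : ℝ) + (r.2 i : ℝ)))
      (fun j _ => by positivity) hr
  unfold Network.bound; linarith

theorem dot_field (N : Network d) (k : (Fin d → ℕ) × (Fin d → ℕ) → ℝ) (w x : Fin d → ℝ) :
    dot w (N.field k x) = ∑ r ∈ N.R, (k r * ∏ j, x j ^ r.1 j) *
      (dot (fun i => (r.2 i : ℝ)) w - dot (fun i => (r.1 i : ℝ)) w) := by
  simp only [dot, Network.field, mul_sum]
  rw [sum_comm]
  refine sum_congr rfl fun r _ => ?_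
  rw [← sum_sub_distrib, mul_sum]
  exact sum_congr rfl fun i _ => by ring

theorem prod_pow_eq_exp {x : Fin d → ℝ} (hx : ∀ i, 0 < x i) (y : Fin d → ℕ) :
    ∏ j, x j ^ y j = exp (dot (fun i => (y i : ℝ)) fun i => log (x i)) := by
  rw [dot, exp_sum]
  refine prod_congr rfl fun j _ => ?_
  rw [exp_nat_mul, exp_log (hx j)]

theorem dot_sub_left (u v w : Fin d → ℝ) :
    dot (fun i => u i - v i) w = dot u w - dot v w := by
  simp only [dot, sub_mul, sum_sub_distrib]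

theorem dot_field_le (N : Network d) (hN : N.WeaklyReversible) {ε : ℝ} (hε : 0 < ε)
    {k : (Fin d → ℕ) × (Fin d → ℕ) → ℝ} (hk : N.Rates ε k) {w x : Fin d → ℝ}
    (hx : ∀ i, 0 < x i) (hw : Good N.bound (2 * N.R.card / ε ^ 2) w x)
    {r0 : (Fin d → ℕ) × (Fin d → ℕ)} (hr0 : r0 ∈ N.R) :
    dot w (N.field k x) ≤ -((k r0 * ∏ j, x j ^ r0.1 j) *
      |dot (fun i => (r0.2 i : ℝ)) w - dot (fun i => (r0.1 i : ℝ)) w|) / 3 := by
  rw [dot_field]
  have hprod : ∀ y : Fin d → ℕ, 0 < ∏ j, x j ^ y j := fun y =>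
    prod_pos fun j _ => pow_pos (hx j) _
  refine cut N hN (fun r => k r * ∏ j, x j ^ r.1 j)
    (fun r hr => mul_nonneg (hε.le.trans (hk r hr).1) (hprod _).le)
    (fun y => dot (fun i => (y i : ℝ)) w) (fun r hr r' hr' hlt => ?_) hr0
  have h1 := hw (fun i => (r'.1 i : ℤ) - (r.1 i : ℤ)) (fun i => by
    have h2 := N.le_bound hr i
    have h3 := N.le_bound hr' i
    have h4 : (0 : ℝ) ≤ r.1 i := Nat.cast_nonneg _
    have h5 : (0 : ℝ) ≤ r.2 i := Nat.cast_nonneg _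
    have h6 : (0 : ℝ) ≤ r'.1 i := Nat.cast_nonneg _
    have h7 : (0 : ℝ) ≤ r'.2 i := Nat.cast_nonneg _
    push_cast
    rw [abs_le]; constructor <;> linarith) (by
    push_cast
    rw [dot_sub_left]; linarith)
  push_cast at h1
  rw [dot_sub_left] at h1
  set M : ℝ := 2 * N.R.card / ε ^ 2 with hM
  have h2 : M * ∏ j, x j ^ r.1 j ≤ ∏ j, x j ^ r'.1 j := by
    rw [prod_pow_eq_exp hx, prod_pow_eq_exp hx]
    calc M * exp (dot (fun i => (r.1 i : ℝ)) fun i => log (x i))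
        ≤ exp M * exp (dot (fun i => (r.1 i : ℝ)) fun i => log (x i)) :=
          mul_le_mul_of_nonneg_right (by linarith [add_one_le_exp M]) (exp_pos _).le
      _ ≤ _ := by rw [← exp_add]; exact exp_le_exp.2 (by linarith)
  have hA := hprod r.1
  calc 2 * (N.R.card : ℝ) * (k r * ∏ j, x j ^ r.1 j)
      ≤ 2 * N.R.card * (ε⁻¹ * ∏ j, x j ^ r.1 j) :=
        mul_le_mul_of_nonneg_left (mul_le_mul_of_nonneg_right (hk r hr).2 hA.le) (by positivity)
    _ = ε * (M * ∏ j, x j ^ r.1 j) := by rw [hM]; field_simp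
    _ ≤ ε * ∏ j, x j ^ r'.1 j := mul_le_mul_of_nonneg_left h2 hε.le
    _ ≤ k r' * ∏ j, x j ^ r'.1 j := mul_le_mul_of_nonneg_right (hk r' hr').1 (hprod _).le

theorem dot_field_nonpos (N : Network d) (hN : N.WeaklyReversible) {ε : ℝ} (hε : 0 < ε)
    {k : (Fin d → ℕ) × (Fin d → ℕ) → ℝ} (hk : N.Rates ε k) {w x : Fin d → ℝ}
    (hx : ∀ i, 0 < x i) (hw : Good N.bound (2 * N.R.card / ε ^ 2) w x) :
    dot w (N.field k x) ≤ 0 := by
  rcases N.R.eq_empty_or_nonempty with h | ⟨r0, hr0⟩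
  · rw [dot_field, h, sum_empty]
  · refine (dot_field_le N hN hε hk hx hw hr0).trans ?_
    have h1 : 0 ≤ k r0 := hε.le.trans (hk r0 hr0).1
    have h2 : 0 < ∏ j, x j ^ r0.1 j := prod_pos fun j _ => pow_pos (hx j) _
    have h3 : 0 ≤ (k r0 * ∏ j, x j ^ r0.1 j) *
      |dot (fun i => (r0.2 i : ℝ)) w - dot (fun i => (r0.1 i : ℝ)) w| := by positivity
    linarith

end Vale.Agent.P072
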