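import Mathlib

/-! Definitions used in the statements about mass-action systems. -/

namespace Vale.Agent.P072

open Set MeasureTheory

/-- A finite reaction network on `d` species: a finite set `C` of complexes in `ℤ_{≥0}^d` and a
set `R` of reactions `y → y'`, which are pairs of distinct complexes. -/
structure Network (d : ℕ) where
  C : Finset (Fin d → ℕ)
  R : Finset ((Fin d → ℕ) × (Fin d → ℕ))
  mem_C : ∀ r ∈ R, r.1 ∈ C ∧ r.2 ∈ C
  ne : ∀ r ∈ R, r.1 ≠ r.2

variable {d : ℕ}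

/-- For every reaction `y → y'` there is a directed path from `y'` to `y`. -/
def Network.WeaklyReversible (N : Network d) : Prop :=
  ∀ r ∈ N.R, Relation.TransGen (fun y y' => (y, y') ∈ N.R) r.2 r.1

/-- The mass-action vector field `f(x) = ∑ k_{y → y'} x^y (y' - y)`. -/
def Network.field (N : Network d) (k : (Fin d → ℕ) × (Fin d → ℕ) → ℝ) (x : Fin d → ℝ) :
    Fin d → ℝ :=
  fun i => ∑ r ∈ N.R, k r * (∏ j, x j ^ r.1 j) * ((r.2 i : ℝ) - (r.1 i : ℝ))

/-- The stoichiometric subspace `S`, spanned by the vectors `y' - y`. -/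
def Network.stoich (N : Network d) : Submodule ℝ (Fin d → ℝ) :=
  Submodule.span ℝ {v | ∃ r ∈ N.R, v = fun i => (r.2 i : ℝ) - (r.1 i : ℝ)}

/-- The positive stoichiometric class `(c + S) ∩ ℝ^d_{>0}`. -/
def Network.posClass (N : Network d) (c : Fin d → ℝ) : Set (Fin d → ℝ) :=
  {x | x - c ∈ N.stoich ∧ ∀ i, 0 < x i}

/-- `x` solves `x' = f(x)` on the time interval `I`. -/
def IsSol (f : (Fin d → ℝ) → Fin d → ℝ) (x : ℝ → Fin d → ℝ) (I : Set ℝ) : Prop :=
  ∀ t ∈ I, HasDerivWithinAt x (f (x t)) I t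

/-- Permanence of `x' = f(x)` on `P`: from every point of `P` there starts a global positive
solution, of which every solution on an interval `[0, T)` with the same initial value is a
restriction; and there is a compact `K ⊆ P` which every solution on `[0, ∞)` starting in `P`
eventually stays in. -/
def PermanentOn (f : (Fin d → ℝ) → Fin d → ℝ) (P : Set (Fin d → ℝ)) : Prop :=
  (∀ x₀ ∈ P, ∃ x : ℝ → Fin d → ℝ, x 0 = x₀ ∧ IsSol f x (Ici 0) ∧ (∀ t ≥ 0, ∀ i, 0 < x t i) ∧
    ∀ T > 0, ∀ z : ℝ → Fin d → ℝ, z 0 = x₀ → IsSol f z (Ico 0 T) → ∀ t ∈ Ico 0 T, z t = x t) ∧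
  ∃ K : Set (Fin d → ℝ), IsCompact K ∧ K ⊆ P ∧
    ∀ x : ℝ → Fin d → ℝ, x 0 ∈ P → IsSol f x (Ici 0) → ∃ T : ℝ, ∀ t ≥ T, x t ∈ K

/-- `x` is a Carathéodory solution of `x' = F(t, x)` on the interval `I` starting at `0`: it is
continuous and satisfies the integral equation. -/
def IsIntSol (F : ℝ → (Fin d → ℝ) → Fin d → ℝ) (x : ℝ → Fin d → ℝ) (I : Set ℝ) : Prop :=
  ContinuousOn x I ∧ ∀ t ∈ I, IntervalIntegrable (fun s => F s (x s)) volume 0 t ∧
    x t = x 0 + ∫ s in (0 : ℝ)..t, F s (x s)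

end Vale.Agent.P072
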