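import Vale.Agent.P072.Cut

/-! Monotonicity of the Lyapunov functions and a priori bounds. -/

namespace Vale.Agent.P072

open Finset Real Topology

variable {d : ℕ}

/-- Curves along which linear functionals decrease as the vector fields prescribe. -/
structure Traj (N : Network d) (ε : ℝ) (x : ℝ → Fin d → ℝ) (T : ℝ) : Prop where
  cont : ContinuousOn x (Set.Icc 0 T)
  dec : ∀ t t', 0 ≤ t → t ≤ t' → t' ≤ T → ∀ (w : Fin d → ℝ) (κ : ℝ),
    (∀ s ∈ Set.Icc t t', ∀ k, N.Rates ε k → dot w (N.field k (x s)) ≤ -κ) →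
    dot w (x t') ≤ dot w (x t) - κ * (t' - t)

theorem Traj.mono {N : Network d} {ε : ℝ} {x : ℝ → Fin d → ℝ} {T T' : ℝ} (h : Traj N ε x T)
    (hT : T' ≤ T) : Traj N ε x T' :=
  ⟨h.cont.mono (Set.Icc_subset_Icc_right hT),
    fun t t' h1 h2 h3 => h.dec t t' h1 h2 (h3.trans hT)⟩

theorem chain_le (f : ℝ → ℝ) {a b h : ℝ} (hh : 0 < h) (hab : a ≤ b)
    (H : ∀ t t', a ≤ t → t ≤ t' → t' ≤ b → t' ≤ t + h → f t' ≤ f t) : f b ≤ f a := by
  have key : ∀ n : ℕ, ∀ t, a ≤ t → t ≤ b → t ≤ a + n * h → f t ≤ f a := by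
    intro n
    induction n with
    | zero =>
      intro t h1 _ h3
      have : t = a := le_antisymm (by simpa using h3) h1
      rw [this]
    | succ n ih =>
      intro t h1 h2 h3
      by_cases hc : t ≤ a + n * h
      · exact ih t h1 h2 hc
      · have h4 : 0 ≤ (n : ℝ) * h := by positivity
        push_cast at h3
        exact (H (a + n * h) t (by linarith) (by linarith) h2 (by linarith)).trans
          (ih _ (by linarith) (by linarith) le_rfl)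
  obtain ⟨n, hn⟩ := exists_nat_ge ((b - a) / h)
  rw [div_le_iff₀ hh] at hn
  exact key n b hab le_rfl (by linarith)

theorem Good.perturb {U δ : ℝ} {w z z' : Fin d → ℝ} (h : Good U (δ + d * U) w z)
    (hz : ∀ i, |log (z i) - log (z' i)| ≤ 1) : Good U δ w z' := by
  intro u hu hpos
  have h1 := h u hu hpos
  have h2 : ∑ i, (u i : ℝ) * (log (z i) - log (z' i)) ≤ d * U := by
    refine (sum_le_card_nsmul _ _ U fun i _ => ?_).trans (by simp)
    refine (le_abs_self _).trans ?_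
    rw [abs_mul]
    simpa using mul_le_mul (hu i) (hz i) (abs_nonneg _) ((abs_nonneg _).trans (hu i))
  simp only [dot, mul_sub, sum_sub_distrib] at h1 h2 ⊢
  linarith

theorem Traj.lyap {N : Network d} {ε : ℝ} {x : ℝ → Fin d → ℝ} {T : ℝ} (hx : Traj N ε x T)
    (hpos : ∀ t ∈ Set.Icc 0 T, ∀ i, 0 < x t i) {Φ : (Fin d → ℝ) → ℝ}
    {Y : Set ((Fin d → ℝ) × ℝ)} (hle : ∀ p ∈ Y, ∀ z : Fin d → ℝ, (∀ i, 0 < z i) → val p z ≤ Φ z)
    {a b : ℝ} (ha : 0 ≤ a) (hab : a ≤ b) (hb : b ≤ T) (Q : (Fin d → ℝ) → Prop) {U δ κ : ℝ}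
    (hQ : ∀ w, Q w → ∀ s ∈ Set.Icc a b, ∀ k, N.Rates ε k → Good U δ w (x s) →
      dot w (N.field k (x s)) ≤ -κ)
    (hnear : ∀ t ∈ Set.Icc a b, ∀ ρ > 0, ∃ p ∈ Y, Φ (x t) - ρ ≤ val p (x t) ∧
      Good U (δ + d * U) p.1 (x t) ∧ Q p.1) :
    Φ (x b) ≤ Φ (x a) - κ * (b - a) := by
  have hsub : Set.Icc a b ⊆ Set.Icc 0 T := Set.Icc_subset_Icc ha hb
  have hc : ContinuousOn (fun t i => log (x t i)) (Set.Icc a b) := by
    refine continuousOn_pi.2 fun i => ?_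
    exact ((continuousOn_pi.1 hx.cont i).mono hsub).log fun t ht => (hpos t (hsub ht) i).ne'
  obtain ⟨h, hh, H⟩ := Metric.uniformContinuousOn_iff_le.1
    (isCompact_Icc.uniformContinuousOn_of_continuous hc) 1 one_pos
  have key := chain_le (fun t => Φ (x t) + κ * t) hh hab (by
    intro t t' h1 h2 h3 h4
    have ht : t ∈ Set.Icc a b := ⟨h1, h2.trans h3⟩
    have ht' : t' ∈ Set.Icc a b := ⟨h1.trans h2, h3⟩
    refine le_of_forall_pos_le_add fun ρ hρ => ?_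
    obtain ⟨p, hp, h5, h6, h7⟩ := hnear t' ht' ρ hρ
    have h8 := hx.dec t t' (ha.trans h1) h2 (h3.trans hb) p.1 κ (by
      intro s hs k hk
      have hs' : s ∈ Set.Icc a b := ⟨h1.trans hs.1, hs.2.trans h3⟩
      refine hQ _ h7 s hs' k hk (h6.perturb fun i => ?_)
      have h9 := H t' ht' s hs' (by
        rw [Real.dist_eq, abs_le]; constructor <;> linarith [hs.1, hs.2])
      have h10 := (dist_le_pi_dist _ _ i).trans h9
      rwa [Real.dist_eq] at h10)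
    have h9 := hle p hp (x t) (hpos t (hsub ht))
    simp only [val] at h5 h9 ⊢
    linarith)
  linarith

/-- Extension by zero. -/
noncomputable def ext (I : Finset (Fin d)) (w : I → ℝ) : Fin d → ℝ :=
  fun i => if h : i ∈ I then w ⟨i, h⟩ else 0

theorem sum_split (I : Finset (Fin d)) (F : Fin d → ℝ) :
    ∑ i, F i = ∑ i : I, F i + ∑ i ∈ Iᶜ, F i := by
  rw [sum_coe_sort I F, sum_add_sum_compl]

theorem dot_ext_left (I : Finset (Fin d)) (w : I → ℝ) (z : Fin d → ℝ) :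
    dot (ext I w) z = dot w fun i => z i := by
  rw [dot, sum_split I, sum_eq_zero (s := Iᶜ) fun i hi => by simp [ext, mem_compl.1 hi]]
  simp [dot, ext]

theorem dot_comm {ι : Type*} [Fintype ι] (w z : ι → ℝ) : dot w z = dot z w :=
  sum_congr rfl fun _ _ => mul_comm _ _

theorem Good.lift {U δ b : ℝ} (hb : 0 ≤ b) {I : Finset (Fin d)} {w : I → ℝ} {z : Fin d → ℝ}
    (h : Good U (δ + d * U * b) w fun i => z i) (hz : ∀ j, j ∉ I → |log (z j)| ≤ b) :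
    Good U δ (ext I w) z := by
  intro u hu hpos
  rw [dot_comm, dot_ext_left, dot_comm] at hpos
  have h1 := h (fun i => u i) (fun i => hu i) hpos
  rw [dot, sum_split I]
  have h2 : ∑ i ∈ Iᶜ, -((u i : ℝ) * log (z i)) ≤ ∑ i : Fin d, U * b := by
    refine (sum_le_sum (g := fun _ => U * b) fun i hi => ?_).trans
      (sum_le_sum_of_subset_of_nonneg (subset_univ _) fun i _ _ =>
        mul_nonneg ((abs_nonneg _).trans (hu i)) hb)
    refine (neg_le_abs _).trans ?_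
    rw [abs_mul]
    exact mul_le_mul (hu i) (hz i (mem_compl.1 hi)) (abs_nonneg _) ((abs_nonneg _).trans (hu i))
  rw [sum_neg_distrib] at h2
  simp only [sum_const, card_univ, Fintype.card_fin, nsmul_eq_mul] at h2
  simp only [dot] at h1
  linarith

theorem Lyap.near_good {ι : Type*} [Fintype ι] {U δ : ℝ} (L : Lyap ι U δ) {z : ι → ℝ}
    (hz : ∀ i, 0 < z i) {ρ : ℝ} (hρ : 0 < ρ) :
    ∃ p ∈ L.Y, L.Φ z - ρ ≤ val p z ∧ Good U δ p.1 z := by
  obtain ⟨ρ0, h0, h1⟩ := L.good z hz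
  obtain ⟨p, hp, h2⟩ := L.near z hz (min ρ ρ0) (lt_min hρ h0)
  exact ⟨p, hp, by linarith [min_le_left ρ ρ0],
    (h1 p hp (by linarith [min_le_right ρ ρ0])).1⟩

variable {N : Network d} {ε : ℝ}

theorem Traj.lyap_full (hN : N.WeaklyReversible) (hε : 0 < ε)
    (L : Lyap (Fin d) N.bound (2 * N.R.card / ε ^ 2 + d * N.bound))
    {x : ℝ → Fin d → ℝ} {T : ℝ} (hx : Traj N ε x T)
    (hpos : ∀ t ∈ Set.Icc 0 T, ∀ i, 0 < x t i) {a b : ℝ} (ha : 0 ≤ a) (hab : a ≤ b)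
    (hb : b ≤ T) : L.Φ (x b) ≤ L.Φ (x a) := by
  have hsub : Set.Icc a b ⊆ Set.Icc 0 T := Set.Icc_subset_Icc ha hb
  have := hx.lyap hpos L.le ha hab hb (fun _ => True) (κ := 0) (U := N.bound)
    (δ := 2 * N.R.card / ε ^ 2)
    (fun w _ s hs k hk hw => by
      simpa using dot_field_nonpos N hN hε hk (hpos s (hsub hs)) hw)
    (fun t ht ρ hρ => by
      obtain ⟨p, hp, h1, h2⟩ := L.near_good (hpos t (hsub ht)) hρ
      exact ⟨p, hp, h1, h2, trivial⟩)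
  simpa using this

theorem Traj.lyap_sub (hN : N.WeaklyReversible) (hε : 0 < ε) {I : Finset (Fin d)} {β : ℝ}
    (hβ : 0 ≤ β) (L : Lyap I N.bound (2 * N.R.card / ε ^ 2 + d * N.bound + d * N.bound * β))
    {x : ℝ → Fin d → ℝ} {T : ℝ} (hx : Traj N ε x T)
    (hpos : ∀ t ∈ Set.Icc 0 T, ∀ i, 0 < x t i) {a b : ℝ} (ha : 0 ≤ a) (hab : a ≤ b)
    (hb : b ≤ T) (hout : ∀ t ∈ Set.Icc a b, ∀ j, j ∉ I → |log (x t j)| ≤ β) :
    L.Φ (fun i => x b i) ≤ L.Φ (fun i => x a i) := by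
  have hsub : Set.Icc a b ⊆ Set.Icc 0 T := Set.Icc_subset_Icc ha hb
  have hval : ∀ (p : (I → ℝ) × ℝ) (z : Fin d → ℝ),
      val (ext I p.1, p.2) z = val p fun i => z i := fun p z => by
    simp only [val, dot_ext_left]
  have := hx.lyap hpos (Φ := fun z => L.Φ fun i => z i)
    (Y := (fun p : (I → ℝ) × ℝ => (ext I p.1, p.2)) '' L.Y)
    (by
      rintro _ ⟨p, hp, rfl⟩ z hz
      rw [hval]
      exact L.le p hp _ fun i => hz i)
    ha hab hb (fun _ => True) (κ := 0) (U := N.bound) (δ := 2 * N.R.card / ε ^ 2)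
    (fun w _ s hs k hk hw => by
      simpa using dot_field_nonpos N hN hε hk (hpos s (hsub hs)) hw)
    (fun t ht ρ hρ => by
      obtain ⟨p, hp, h1, h2⟩ := L.near_good (z := fun i => x t i)
        (fun i => hpos t (hsub ht) i) hρ
      exact ⟨_, ⟨p, hp, rfl⟩, by rwa [hval], h2.lift hβ (hout t ht), trivial⟩)
  simpa using this

theorem upper_bound (hN : N.WeaklyReversible) (hε : 0 < ε) (x₀ : Fin d → ℝ) :
    ∃ B : ℝ, ∀ (x : ℝ → Fin d → ℝ) (T : ℝ), Traj N ε x T →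
      (∀ t ∈ Set.Icc 0 T, ∀ i, 0 < x t i) → x 0 = x₀ → ∀ t ∈ Set.Icc 0 T, ∀ i, x t i ≤ B := by
  obtain ⟨L⟩ := exists_lyap (Fin d) N.one_le_bound (2 * N.R.card / ε ^ 2 + d * N.bound)
  refine ⟨L.Φ x₀ + L.B, fun x T hx hpos h0 t ht i => ?_⟩
  have h1 := hx.lyap_full hN hε L hpos le_rfl ht.1 ht.2
  have h2 := L.lower (x t) (hpos t ht)
  have h3 : x t i ≤ ∑ j, x t j :=
    single_le_sum (f := fun j => x t j) (fun j _ => (hpos t ht j).le) (mem_univ i)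
  rw [h0] at h1
  linarith

theorem barrier (hN : N.WeaklyReversible) (hε : 0 < ε) {x₀ : Fin d → ℝ} (hx₀ : ∀ i, 0 < x₀ i)
    {I : Finset (Fin d)} (hI : I.Nonempty) {β η : ℝ} (hβ : 0 ≤ β) (hη : 0 < η) :
    ∃ η' > 0, ∀ (x : ℝ → Fin d → ℝ) (T : ℝ), Traj N ε x T →
      (∀ t ∈ Set.Icc 0 T, ∀ i, 0 < x t i) → x 0 = x₀ →
      (∀ t ∈ Set.Icc 0 T, (∀ i ∈ I, x t i < η) → ∀ j, j ∉ I → |log (x t j)| ≤ β) →
      ∀ t ∈ Set.Icc 0 T, ∃ i ∈ I, η' ≤ x t i := by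
  obtain ⟨L⟩ := exists_lyap I N.one_le_bound
    (2 * N.R.card / ε ^ 2 + d * N.bound + d * N.bound * β)
  obtain ⟨i0, hi0⟩ := hI
  set ζ : ℝ := min (min L.ζ (η / 2)) (x₀ i0) with hζ
  have hζ0 : 0 < ζ := lt_min (lt_min L.ζ_pos (by linarith)) (hx₀ i0)
  have hζ1 : ζ ≤ L.ζ := (min_le_left _ _).trans (min_le_left _ _)
  have hζ2 : ζ ≤ η / 2 := (min_le_left _ _).trans (min_le_right _ _)
  have hζ3 : ζ ≤ x₀ i0 := min_le_right _ _
  obtain ⟨η', hη', hsmall⟩ := L.small (ζ / 2) (by linarith)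
  refine ⟨min η' ζ, lt_min hη' hζ0, fun x T hx hpos h0 hout t2 ht2 => ?_⟩
  by_contra hcon
  push Not at hcon
  have hsub : Set.Icc 0 t2 ⊆ Set.Icc 0 T := Set.Icc_subset_Icc_right ht2.2
  have hci : ∀ i, ContinuousOn (fun t => x t i) (Set.Icc 0 t2) := fun i =>
    (continuousOn_pi.1 hx.cont i).mono hsub
  set S : Set ℝ := ⋃ i ∈ I, Set.Icc 0 t2 ∩ (fun t => x t i) ⁻¹' Set.Ici ζ with hS
  have hSc : IsCompact S := I.isCompact_biUnion fun i _ =>
    isCompact_Icc.of_isClosed_subset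
      ((hci i).preimage_isClosed_of_isClosed isClosed_Icc isClosed_Ici) Set.inter_subset_left
  have hmem : ∀ t, t ∈ S ↔ t ∈ Set.Icc 0 t2 ∧ ∃ i ∈ I, ζ ≤ x t i := by
    intro t
    simp only [hS, Set.mem_iUnion, Set.mem_inter_iff, Set.mem_preimage, Set.mem_Ici]
    constructor
    · rintro ⟨i, hi, h1, h2⟩; exact ⟨h1, i, hi, h2⟩
    · rintro ⟨h1, i, hi, h2⟩; exact ⟨i, hi, h1, h2⟩
  obtain ⟨t1, ht1, hmax⟩ := hSc.exists_isGreatest
    ⟨0, (hmem 0).2 ⟨⟨le_rfl, ht2.1⟩, i0, hi0, by rwa [h0]⟩⟩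
  obtain ⟨ht1', i1, hi1, hx1⟩ := (hmem t1).1 ht1
  have hlt : t1 < t2 := by
    refine lt_of_le_of_ne ht1'.2 fun h => ?_
    have := hcon i1 hi1
    rw [h] at hx1
    linarith [min_le_right η' ζ]
  have hle : ∀ i ∈ I, ∀ t ∈ Set.Icc t1 t2, x t i ≤ ζ := by
    intro i hi
    have hcl : IsClosed (Set.Icc 0 t2 ∩ (fun t => x t i) ⁻¹' Set.Iic ζ) :=
      (hci i).preimage_isClosed_of_isClosed isClosed_Icc isClosed_Iic
    have h1 : Set.Ioc t1 t2 ⊆ Set.Icc 0 t2 ∩ (fun t => x t i) ⁻¹' Set.Iic ζ := by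
      intro t ht
      have ht' : t ∈ Set.Icc 0 t2 := ⟨ht1'.1.trans ht.1.le, ht.2⟩
      refine ⟨ht', ?_⟩
      by_contra hc
      have h2 : ζ ≤ x t i := (not_le.1 hc).le
      exact absurd (hmax ((hmem t).2 ⟨ht', i, hi, h2⟩)) (not_le.2 ht.1)
    have h2 := hcl.closure_subset_iff.2 h1
    rw [closure_Ioc hlt.ne] at h2
    exact fun t ht => (h2 ht).2
  have hsub' : Set.Icc t1 t2 ⊆ Set.Icc 0 T := Set.Icc_subset_Icc ht1'.1 ht2.2
  have h1 := hx.lyap_sub hN hε hβ L hpos ht1'.1 hlt.le ht2.2 fun t ht =>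
    hout t (hsub' ht) fun i hi => by linarith [hle i hi t ht]
  have h2 := L.neg (fun i => x t1 i) (fun i => hpos t1 (hsub ht1') i)
    fun i => (hle i i.2 t1 ⟨le_rfl, hlt.le⟩).trans hζ1
  have h3 := hsmall (fun i => x t2 i) (fun i => hpos t2 ht2 i)
    fun i => (hcon i i.2).le.trans (min_le_left _ _)
  have h4 : x t1 i1 ≤ ∑ i : I, x t1 i :=
    single_le_sum (f := fun i : I => x t1 i) (fun i _ => (hpos t1 (hsub ht1') i).le)
      (mem_univ (⟨i1, hi1⟩ : I))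
  linarith

theorem lower_bound (hN : N.WeaklyReversible) (hε : 0 < ε) {x₀ : Fin d → ℝ}
    (hx₀ : ∀ i, 0 < x₀ i) (m : ℕ) :
    ∃ η > 0, ∀ (x : ℝ → Fin d → ℝ) (T : ℝ), Traj N ε x T →
      (∀ t ∈ Set.Icc 0 T, ∀ i, 0 < x t i) → x 0 = x₀ →
      ∀ I : Finset (Fin d), I.Nonempty → d < I.card + m → ∀ t ∈ Set.Icc 0 T,
        ∃ i ∈ I, η ≤ x t i := by
  induction m with
  | zero =>
    refine ⟨1, one_pos, fun x T _ _ _ I _ hI => ?_⟩
    have := card_le_univ I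
    simp at this hI
    omega
  | succ m ih =>
    obtain ⟨η, hη, H⟩ := ih
    obtain ⟨B, hB⟩ := upper_bound hN hε x₀
    have key : ∀ I : Finset (Fin d), ∃ η' > 0, I.Nonempty →
        ∀ (x : ℝ → Fin d → ℝ) (T : ℝ), Traj N ε x T →
        (∀ t ∈ Set.Icc 0 T, ∀ i, 0 < x t i) → x 0 = x₀ →
        (∀ t ∈ Set.Icc 0 T, (∀ i ∈ I, x t i < η) → ∀ j, j ∉ I →
          |log (x t j)| ≤ |log η| + |log B|) →
        ∀ t ∈ Set.Icc 0 T, ∃ i ∈ I, η' ≤ x t i := by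
      intro I
      by_cases hI : I.Nonempty
      · obtain ⟨η', h1, h2⟩ := barrier hN hε hx₀ hI
          (β := |log η| + |log B|) (by positivity) hη
        exact ⟨η', h1, fun _ => h2⟩
      · exact ⟨1, one_pos, fun h => absurd h hI⟩
    choose f hf0 hf using key
    obtain ⟨η', hη', hle⟩ := exists_pos_le f hf0
    refine ⟨η', hη', fun x T hx hpos h0 I hI hcard t ht => ?_⟩
    obtain ⟨i, hi, h1⟩ := hf I hI x T hx hpos h0 (by
      intro s hs hsm j hj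
      obtain ⟨i, hi, h2⟩ := H x T hx hpos h0 (insert j I) (insert_nonempty _ _)
        (by rw [card_insert_of_notMem hj]; omega) s hs
      have hij : i = j := by
        rcases mem_insert.1 hi with h | h
        · exact h
        · linarith [hsm i h]
      subst hij
      have h3 := log_le_log hη h2
      have h4 := log_le_log (hpos s hs i) (hB x T hx hpos h0 s hs i)
      rw [abs_le]
      constructor <;>
        linarith [neg_abs_le (log η), le_abs_self (log B), abs_nonneg (log η),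
          abs_nonneg (log B)]) t ht
    exact ⟨i, hi, (hle I).trans h1⟩

theorem apriori_pos (hN : N.WeaklyReversible) (hε : 0 < ε) {x₀ : Fin d → ℝ}
    (hx₀ : ∀ i, 0 < x₀ i) :
    ∃ lo > 0, ∃ hi : ℝ, (∀ i, lo ≤ x₀ i ∧ x₀ i ≤ hi) ∧ ∀ (x : ℝ → Fin d → ℝ) (T : ℝ),
      Traj N ε x T → (∀ t ∈ Set.Icc 0 T, ∀ i, 0 < x t i) → x 0 = x₀ →
      ∀ t ∈ Set.Icc 0 T, ∀ i, lo ≤ x t i ∧ x t i ≤ hi := by
  obtain ⟨η, hη, H⟩ := lower_bound hN hε hx₀ d
  obtain ⟨B, hB⟩ := upper_bound hN hε x₀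
  have main : ∀ (x : ℝ → Fin d → ℝ) (T : ℝ),
      Traj N ε x T → (∀ t ∈ Set.Icc 0 T, ∀ i, 0 < x t i) → x 0 = x₀ →
      ∀ t ∈ Set.Icc 0 T, ∀ i, η ≤ x t i ∧ x t i ≤ B := by
    intro x T hx hpos h0 t ht i
    obtain ⟨j, hj, h1⟩ := H x T hx hpos h0 {i} (singleton_nonempty i) (by simp) t ht
    rw [mem_singleton.1 hj] at h1
    exact ⟨h1, hB x T hx hpos h0 t ht i⟩
  refine ⟨η, hη, B, ?_, main⟩
  refine main (fun _ => x₀) 0 ⟨continuousOn_const, fun t t' h1 h2 h3 w κ _ => ?_⟩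
    (fun _ _ => hx₀) rfl 0 ⟨le_rfl, le_rfl⟩
  have : t' = t := by linarith
  simp [this]

theorem box_induction {x : ℝ → Fin d → ℝ} {T lo hi : ℝ} (hc : ContinuousOn x (Set.Icc 0 T))
    (hlo : 0 < lo) (h0 : ∀ i, lo ≤ x 0 i ∧ x 0 i ≤ hi)
    (h : ∀ T' ∈ Set.Icc 0 T, (∀ t ∈ Set.Icc 0 T', ∀ i, lo / 2 ≤ x t i ∧ x t i ≤ hi + 1) →
      ∀ t ∈ Set.Icc 0 T', ∀ i, lo ≤ x t i ∧ x t i ≤ hi) :
    ∀ t ∈ Set.Icc 0 T, ∀ i, lo ≤ x t i ∧ x t i ≤ hi := by
  have hcl : IsClosed {z : Fin d → ℝ | ∀ i, lo ≤ z i ∧ z i ≤ hi} := by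
    simp only [Set.ofPred_forall]
    exact isClosed_iInter fun i => (isClosed_le continuous_const (continuous_apply i)).inter
      (isClosed_le (continuous_apply i) continuous_const)
  have hop : IsOpen {z : Fin d → ℝ | ∀ i, lo / 2 < z i ∧ z i < hi + 1} := by
    simp only [Set.ofPred_forall]
    exact isOpen_iInter_of_finite fun i =>
      (isOpen_lt continuous_const (continuous_apply i)).inter
        (isOpen_lt (continuous_apply i) continuous_const)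
  have key : Set.Icc 0 T ⊆ x ⁻¹' {z : Fin d → ℝ | ∀ i, lo ≤ z i ∧ z i ≤ hi} := by
    refine IsClosed.Icc_subset_of_forall_mem_nhdsGT_of_Icc_subset ?_ h0 ?_
    · rw [Set.inter_comm]
      exact hc.preimage_isClosed_of_isClosed isClosed_Icc hcl
    · intro t ht hsub
      have h1 : x t ∈ {z : Fin d → ℝ | ∀ i, lo / 2 < z i ∧ z i < hi + 1} := fun i => by
        have := hsub ⟨ht.1, le_rfl⟩ i
        constructor <;> linarith [this.1, this.2]
      have h2 := (hc t ⟨ht.1, ht.2.le⟩).preimage_mem_nhdsWithin (hop.mem_nhds h1)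
      have h3 : Set.Icc 0 T ∈ 𝓝[>] t :=
        Filter.mem_of_superset (Ioc_mem_nhdsGT ht.2) fun s hs => ⟨ht.1.trans hs.1.le, hs.2⟩
      have h4 := Filter.inter_mem h3 (nhdsWithin_le_of_mem h3 h2)
      obtain ⟨u, hu, hu'⟩ := mem_nhdsGT_iff_exists_Ioc_subset.1 h4
      refine Filter.mem_of_superset (Ioc_mem_nhdsGT hu) fun s hs => ?_
      refine h u (hu' ⟨hu, le_rfl⟩).1 (fun s' hs' i => ?_) s ⟨ht.1.trans hs.1.le, hs.2⟩
      rcases le_or_gt s' t with h5 | h5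
      · have := hsub ⟨hs'.1, h5⟩ i
        constructor <;> linarith [this.1, this.2]
      · have := (hu' ⟨h5, hs'.2⟩).2 i
        exact ⟨this.1.le, this.2.le⟩
  exact fun t ht => key ht

theorem apriori (hN : N.WeaklyReversible) (hε : 0 < ε) {x₀ : Fin d → ℝ}
    (hx₀ : ∀ i, 0 < x₀ i) :
    ∃ lo > 0, ∃ hi : ℝ, ∀ (x : ℝ → Fin d → ℝ) (T : ℝ), ContinuousOn x (Set.Icc 0 T) → x 0 = x₀ →
      (∀ T' ∈ Set.Icc 0 T, (∀ t ∈ Set.Icc 0 T', ∀ i, lo / 2 ≤ x t i ∧ x t i ≤ hi + 1) →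
        Traj N ε x T') →
      ∀ t ∈ Set.Icc 0 T, ∀ i, lo ≤ x t i ∧ x t i ≤ hi := by
  obtain ⟨lo, hlo, hi, h1, h2⟩ := apriori_pos hN hε hx₀
  refine ⟨lo, hlo, hi, fun x T hc h0 H => box_induction hc hlo (by rwa [h0]) fun T' hT' hb => ?_⟩
  exact h2 x T' (H T' hT' hb) (fun t ht i => by linarith [(hb t ht i).1]) h0

end Vale.Agent.P072
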