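import Vale.Agent.P072.Tree

/-! Near-maximisers of the candidate family. -/

namespace Vale.Agent.P072

open Finset Real

variable {ι : Type*} [Fintype ι]

/-- Euclidean pairing. -/
def dot (w x : ι → ℝ) : ℝ := ∑ i, w i * x i

/-- Value of an affine function. -/
def val (p : (ι → ℝ) × ℝ) (x : ι → ℝ) : ℝ := dot p.1 x - p.2

/-- `w` orders monomials consistently with `x`, with logarithmic margin `δ`. -/
def Good (U δ : ℝ) (w x : ι → ℝ) : Prop :=
  ∀ u : ι → ℤ, (∀ i, |(u i : ℝ)| ≤ U) → 0 < dot (fun i => (u i : ℝ)) w →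
    δ ≤ dot (fun i => (u i : ℝ)) fun i => log (x i)

/-- The candidate family. -/
def Cand (ι : Type*) {n : ℕ} (P : Par n) (lam : ℝ) : Set ((ι → ℝ) × ℝ) :=
  {p | ∃ (σ : ι ≃ Fin n) (s e D : ℕ → ℝ), Valid P n s e D ∧
    p = (fun i => s (σ i), ∑ j ∈ range n, exp (lam * e j))}

theorem exists_pos_le {κ : Type*} [Finite κ] (f : κ → ℝ) (hf : ∀ i, 0 < f i) :
    ∃ ρ > 0, ∀ i, ρ ≤ f i := by
  rcases isEmpty_or_nonempty κ with h | h
  · exact ⟨1, one_pos, fun i => h.elim i⟩
  · obtain ⟨i, hi⟩ := Finite.exists_min f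
    exact ⟨f i, hf i, hi⟩

variable {n : ℕ} {P : Par n} {lam ρ : ℝ} {σ : ι ≃ Fin n} {s e D : ℕ → ℝ} {x : ι → ℝ}

theorem step_up (hv : Valid P n s e D) (hlam : 0 ≤ lam) (hx : ∀ i, 0 < x i)
    (hmax : ∀ q ∈ Cand ι P lam,
      val q x ≤ val (fun i => s (σ i), ∑ j ∈ range n, exp (lam * e j)) x + ρ)
    {k : ℕ} (hk : k < n) {a b c g : ℝ} (ha : AdmAt P k s e (D k) a b c) (hg0 : 0 ≤ g)
    (hg : s k + g ≤ a) (i : ι) (hi : k ≤ σ i) : g * x i ≤ n * exp (lam * b) + ρ := by
  obtain ⟨s', e', D', hv', h1, h2⟩ := (hv.mono hk.le).replace hk ha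
  have h3 := hmax _ ⟨σ, s', e', D', hv', rfl⟩
  simp only [val, dot] at h3
  have h4 : ∀ i, k ≤ σ i → g * x i ≤ s' (σ i) * x i - s (σ i) * x i := by
    intro i hi
    rw [(h2 _ hi (σ i).2).1, ← sub_mul]
    exact mul_le_mul_of_nonneg_right (by linarith [hv.s_anti hi (σ i).2]) (hx i).le
  have h5 : g * x i ≤ ∑ i, (s' (σ i) * x i - s (σ i) * x i) := by
    refine (h4 i hi).trans (single_le_sum (f := fun i => s' (σ i) * x i - s (σ i) * x i)
      (fun j _ => ?_) (mem_univ i))
    by_cases hj : k ≤ σ j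
    · exact (mul_nonneg hg0 (hx j).le).trans (h4 j hj)
    · simp only [(h1 _ (not_le.1 hj)).1, sub_self, le_refl]
  have h6 : ∑ j ∈ range n, (exp (lam * e' j) - exp (lam * e j)) ≤ n * exp (lam * b) := by
    refine (sum_le_card_nsmul _ _ (exp (lam * b)) fun j hj => ?_).trans (by simp)
    by_cases hjk : k ≤ j
    · have := exp_le_exp.2 (mul_le_mul_of_nonneg_left (h2 j hjk (mem_range.1 hj)).2 hlam)
      linarith [exp_pos (lam * e j)]
    · rw [(h1 _ (not_le.1 hjk)).2, sub_self]; exact (exp_pos _).le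
  rw [sum_sub_distrib] at h5 h6
  linarith

theorem step_down [DecidableEq ι] (hv : Valid P n s e D) (hlam : 0 ≤ lam) (hx : ∀ i, 0 < x i)
    (hmax : ∀ q ∈ Cand ι P lam,
      val q x ≤ val (fun i => s (σ i), ∑ j ∈ range n, exp (lam * e j)) x + ρ)
    {k : ℕ} (hk : k < n) {a b c G Bd : ℝ} (ha : AdmAt P k s e (D k) a b c) (hG0 : 0 ≤ G)
    (hG : s k - G ≤ a) (hb : b ≤ e k - 1) (hBd0 : 0 ≤ Bd) (hBd : ∀ i, k < σ i → x i ≤ Bd)
    (i : ι) (hi : σ i ≤ k) (hs : s (σ i) = s k) :
    exp (lam * e k) ≤ G * x i + n * (G * Bd) + n * exp (lam * (e k - 1)) + ρ := by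
  obtain ⟨s', e', D', hv', h1, h2⟩ := (hv.mono hk.le).replace hk ha
  let σ' : ι ≃ Fin n := σ.trans (Equiv.swap (σ i) ⟨k, hk⟩)
  have h3 := hmax _ ⟨σ', s', e', D', hv', rfl⟩
  simp only [val, dot] at h3
  have hcard : Fintype.card ι = n := by simpa using Fintype.card_congr σ
  have h4 : ∀ j, s (σ j) * x j - s' (σ' j) * x j ≤
      G * Bd + if j = i then G * x i else 0 := by
    intro j
    have hGB : 0 ≤ G * Bd := mul_nonneg hG0 hBd0
    by_cases hj : j = i
    · subst hj
      have : σ' j = ⟨k, hk⟩ := by simp [σ']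
      rw [this, if_pos rfl, hs, (h2 k le_rfl hk).1, ← sub_mul]
      have := mul_le_mul_of_nonneg_right (by linarith : s k - a ≤ G) (hx j).le
      linarith
    · rw [if_neg hj, add_zero]
      have hne : σ j ≠ σ i := fun h => hj (σ.injective h)
      by_cases hjk : σ j = ⟨k, hk⟩
      · have h5 : σ' j = σ i := by simp [σ', hjk]
        have h6 : (σ i : ℕ) < k := by
          refine lt_of_le_of_ne hi fun h => hne ?_
          rw [hjk]; exact Fin.ext h.symm
        rw [h5, (h1 _ h6).1, hs, hjk, sub_self]; exact hGB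
      · have h5 : σ' j = σ j := by
          simp only [σ', Equiv.trans_apply]
          exact Equiv.swap_apply_of_ne_of_ne hne hjk
        rw [h5]
        have hjk' : (σ j : ℕ) ≠ k := fun h => hjk (Fin.ext h)
        rcases lt_or_gt_of_ne hjk' with hlt | hgt
        · rw [(h1 _ hlt).1, sub_self]; exact hGB
        · rw [(h2 _ hgt.le (σ j).2).1, ← sub_mul]
          have h6 := hv.s_anti hgt.le (σ j).2
          calc (s (σ j) - a) * x j ≤ G * x j :=
                mul_le_mul_of_nonneg_right (by linarith) (hx j).le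
            _ ≤ G * Bd := mul_le_mul_of_nonneg_left (hBd j hgt) hG0
  have h5 : ∑ j, (s (σ j) * x j - s' (σ' j) * x j) ≤ n * (G * Bd) + G * x i := by
    refine (sum_le_sum fun j _ => h4 j).trans ?_
    rw [sum_add_distrib, sum_ite_eq']
    simp [hcard]
  have h6 : ∑ j ∈ range n, (exp (lam * e' j) - exp (lam * e j)) ≤
      n * exp (lam * (e k - 1)) - exp (lam * e k) := by
    have h7 : ∀ j ∈ range n, exp (lam * e' j) - exp (lam * e j) ≤
        exp (lam * (e k - 1)) - if j = k then exp (lam * e k) else 0 := by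
      intro j hj
      by_cases hjk : k ≤ j
      · have := exp_le_exp.2 (mul_le_mul_of_nonneg_left
          ((h2 j hjk (mem_range.1 hj)).2.trans hb) hlam)
        split_ifs with h
        · rw [h] at this ⊢; linarith
        · linarith [exp_pos (lam * e j)]
      · rw [(h1 _ (not_le.1 hjk)).2, sub_self, if_neg (by omega), sub_zero]
        exact (exp_pos _).le
    refine (sum_le_sum h7).trans ?_
    rw [sum_sub_distrib, sum_ite_eq']
    simp [hk]
  rw [sum_sub_distrib] at h5 h6
  linarith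

theorem Valid.e_close (hv : Valid P n s e D) {j k : ℕ} (hj : j < n) (hk : k < n)
    (h : s j = s k) : |e j - e k| ≤ P.Γ * D n := by
  have h1 := (hv.inv le_rfl n le_rfl).zero
    (fun i => 1 * (if i = j then 1 else 0) - 1 * (if i = k then 1 else 0)) (fun i => by
      have := P.U_one n
      by_cases h1 : i = j <;> by_cases h2 : i = k <;> simp [h1, h2] <;>
        first | linarith | (split_ifs <;> simp <;> linarith))
    (by rw [pair_comb, pair_single hj, pair_single hk, h]; simp)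
  rw [pair_comb, pair_single hj, pair_single hk] at h1
  simpa using h1

theorem near_upper (hv : Valid P n s e D) (hlam : 0 ≤ lam) (hx : ∀ i, 0 < x i)
    (hρ : ∀ i, ρ ≤ P.g n / 2 * x i)
    (hmax : ∀ q ∈ Cand ι P lam,
      val q x ≤ val (fun i => s (σ i), ∑ j ∈ range n, exp (lam * e j)) x + ρ)
    {k : ℕ} (hk : k < n) (hT : ∀ j, j + 1 = k → s j ≠ s k) :
    ∃ b, b ≤ e k + D n ∧ (∀ j, j + 1 = k → b ≤ e j - 1) ∧
      ∀ i, k ≤ σ i → x i ≤ 2 * n / P.g n * exp (lam * b) := by
  have W := hv.wallHyp hk.le hk le_rfl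
  obtain ⟨a, b, c, ha, h1, h2⟩ := W.succ (hv.2 k hk) (by
    rintro p ⟨j, hj, rfl⟩
    exact lt_of_le_of_ne (hv.s_anti (by omega) hk) (hT j hj).symm)
  have hg := P.g_pos n
  refine ⟨b, by linarith [hv.D_mono (Nat.succ_le_of_lt hk) le_rfl],
    fun j hj => W.gap ha ⟨j, hj, rfl⟩, fun i hi => ?_⟩
  have h3 := step_up hv hlam hx hmax hk ha hg.le
    (by linarith [P.g_anti (Nat.succ_le_of_lt hk)]) i hi
  have h4 := hρ i
  rw [div_mul_eq_mul_div, le_div_iff₀ hg]
  linarith

theorem near_max [DecidableEq ι] (hv : Valid P n s e D) (hx : ∀ i, 0 < x i)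
    (hρ : ∀ i, ρ ≤ P.g n / 2 * x i)
    (hl1 : 2 * n / P.g n ≤ lam)
    (hl2 : 2 * (n + n * ((4 * P.R n + 1) * (2 * n / P.g n))) ≤ lam)
    (hl3 : 2 * (4 * P.R n + 1 + 1) ≤ lam)
    (hmax : ∀ q ∈ Cand ι P lam,
      val q x ≤ val (fun i => s (σ i), ∑ j ∈ range n, exp (lam * e j)) x + ρ) (i : ι) :
    |log (x i) - lam * e (σ i)| ≤ lam * ((P.Γ + 2) * D n) := by
  classical
  have hg := P.g_pos n
  have hR := P.R_nonneg n
  have hlam : 0 ≤ lam := by linarith
  have hD := (hv.inv le_rfl n le_rfl).D_one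
  have hexp : lam ≤ exp lam := by linarith [add_one_le_exp lam]
  set k : ℕ := (σ i).val with hkdef
  have hk : k < n := (σ i).2
  rw [abs_le]
  constructor
  · -- lower bound
    set k1 := Nat.findGreatest (fun j => s j = s k) (n - 1) with hk1
    have h1 : k ≤ k1 := Nat.le_findGreatest (by omega) rfl
    have h2 : k1 ≤ n - 1 := Nat.findGreatest_le _
    have h3 : s k1 = s k :=
      Nat.findGreatest_spec (P := fun j => s j = s k) (m := k) (by omega) rfl
    have hk1n : k1 < n := by omega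
    have hBd : ∀ j, k1 < σ j → x j ≤ 2 * n / P.g n * exp (lam * (e k1 - 1)) := by
      intro j hj
      have hj2 := (σ j).2
      obtain ⟨b, -, h5, h6⟩ := near_upper hv hlam hx hρ hmax (k := k1 + 1) (by omega) (by
        intro j' hj'
        have : j' = k1 := by omega
        rw [this, h3]
        exact fun h => Nat.findGreatest_is_greatest (P := fun j => s j = s k)
          (Nat.lt_succ_self k1) (by omega) h.symm)
      refine (h6 j hj).trans (mul_le_mul_of_nonneg_left ?_ (by positivity))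
      exact exp_le_exp.2 (mul_le_mul_of_nonneg_left (h5 k1 rfl) hlam)
    have W := hv.wallHyp hk1n.le hk1n le_rfl
    have hRk := P.R_mono (Nat.succ_le_of_lt hk1n)
    have hRk0 := P.R_nonneg (k1 + 1)
    obtain ⟨a, b, c, ha, h5, h6⟩ := W.dense (s k1 - 2 * P.R (k1 + 1) - 1) fun p hp => by
      linarith [(hv.2 k1 hk1n).1 p hp]
    have h7 := abs_le.1 (W.abs_le ha)
    have h8 := abs_le.1 (W.abs_le (hv.2 k1 hk1n))
    have h9 := step_down hv hlam hx hmax hk1n ha (G := 4 * P.R n + 1) (by linarith)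
      (by simp only [Nat.succ_eq_add_one] at hRk; linarith) (by linarith [h7.1, h8.2])
      (by positivity) hBd i h1 h3.symm
    have hE : exp (lam * e k1) = exp lam * exp (lam * (e k1 - 1)) := by
      rw [← exp_add]; congr 1; ring
    set E' := exp (lam * (e k1 - 1)) with hE'
    have hE0 : 0 < E' := exp_pos _
    have h10 : ρ ≤ x i := by
      have := P.g_le_one n
      nlinarith [hρ i, hx i]
    have h11 : (2 * (n + n * ((4 * P.R n + 1) * (2 * n / P.g n)))) * E' ≤ exp lam * E' :=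
      mul_le_mul_of_nonneg_right (hl2.trans hexp) hE0.le
    have h12 : exp lam * E' ≤ 2 * (4 * P.R n + 1 + 1) * x i := by nlinarith
    have h13 : 2 * (4 * P.R n + 1 + 1) * x i ≤ exp lam * x i :=
      mul_le_mul_of_nonneg_right (hl3.trans hexp) (hx i).le
    have h14 : E' ≤ x i := le_of_mul_le_mul_left (h12.trans h13) (exp_pos _)
    have h15 : lam * (e k1 - 1) ≤ log (x i) := (le_log_iff_exp_le (hx i)).2 h14
    have h16 := abs_le.1 (hv.e_close hk1n hk h3)
    have h17 : lam * (e k - (P.Γ + 2) * D n) ≤ lam * (e k1 - 1) :=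
      mul_le_mul_of_nonneg_left (by linarith [h16.1]) hlam
    linarith
  · -- upper bound
    have hex : ∃ j, s j = s k := ⟨k, rfl⟩
    set k0 := Nat.find hex with hk0
    have h1 : k0 ≤ k := Nat.find_min' hex rfl
    have h2 : s k0 = s k := Nat.find_spec hex
    obtain ⟨b, h3, -, h4⟩ := near_upper hv hlam hx hρ hmax (k := k0) (by omega) (by
      intro j hj
      rw [h2]
      exact Nat.find_min hex (by omega))
    have h5 : x i ≤ exp (lam * (b + 1)) := by
      refine (h4 i h1).trans ?_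
      rw [mul_add, exp_add, mul_one, mul_comm]
      exact mul_le_mul_of_nonneg_left (hl1.trans hexp) (exp_pos _).le
    have h6 : log (x i) ≤ lam * (b + 1) := (log_le_iff_le_exp (hx i)).2 h5
    have h7 := abs_le.1 (hv.e_close (by omega : k0 < n) hk h2)
    have h8 : lam * (b + 1) ≤ lam * (e k + (P.Γ + 2) * D n) :=
      mul_le_mul_of_nonneg_left (by linarith [h7.2]) hlam
    linarith

end Vale.Agent.P072
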