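import Vale.Agent.P072.Dyn

/-! Every global trajectory eventually stays in a fixed compact set. -/

namespace Vale.Agent.P072

open Finset Real Topology

variable {d : ℕ} {N : Network d} {ε : ℝ}

theorem field_eq_sum (N : Network d) (k : (Fin d → ℕ) × (Fin d → ℕ) → ℝ) (z : Fin d → ℝ) :
    N.field k z = ∑ r ∈ N.R, (k r * ∏ j, z j ^ r.1 j) • fun i => (r.2 i : ℝ) - (r.1 i : ℝ) := by
  funext i
  simp [Network.field, Finset.sum_apply]

theorem field_mem (N : Network d) (k : (Fin d → ℕ) × (Fin d → ℕ) → ℝ) (z : Fin d → ℝ) :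
    N.field k z ∈ N.stoich := by
  rw [field_eq_sum]
  exact Submodule.sum_mem _ fun r hr =>
    Submodule.smul_mem _ _ (Submodule.subset_span ⟨r, hr, rfl⟩)

theorem dot_sub_right (w u v : Fin d → ℝ) : dot w (u - v) = dot w u - dot w v := by
  simp only [dot, Pi.sub_apply, mul_sub, sum_sub_distrib]

theorem Traj.sub_mem {x : ℝ → Fin d → ℝ} {T : ℝ} (hx : Traj N ε x T) {t : ℝ}
    (ht : t ∈ Set.Icc 0 T) : x t - x 0 ∈ N.stoich := by
  rw [← Subspace.forall_mem_dualAnnihilator_apply_eq_zero_iff]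
  have key : ∀ φ : Module.Dual ℝ (Fin d → ℝ), φ ∈ N.stoich.dualAnnihilator →
      φ (x t) ≤ φ (x 0) := by
    intro φ hφ
    have h1 : ∀ z, dot (fun i => φ fun j => if i = j then 1 else 0) z = φ z := fun z => by
      rw [LinearMap.pi_apply_eq_sum_univ φ z, dot]
      exact sum_congr rfl fun i _ => by rw [smul_eq_mul, mul_comm]
    have h2 := hx.dec 0 t le_rfl ht.1 ht.2 (fun i => φ fun j => if i = j then 1 else 0) 0
      fun s _ k _ => by
        rw [h1, (Submodule.mem_dualAnnihilator φ).1 hφ _ (field_mem N k _)]; simp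
    rw [h1, h1] at h2
    linarith
  intro φ hφ
  have h1 := key φ hφ
  have h2 := key (-φ) (Submodule.neg_mem _ hφ)
  simp only [LinearMap.neg_apply] at h2
  rw [map_sub]
  linarith

theorem perp_of_not (L : Lyap (Fin d) N.bound ε) {p : (Fin d → ℝ) × ℝ} (hp : p ∈ L.Y)
    (h : ¬∃ r ∈ N.R, L.g ≤ |dot (fun i => (r.2 i : ℝ)) p.1 - dot (fun i => (r.1 i : ℝ)) p.1|) :
    ∀ v ∈ N.stoich, dot p.1 v = 0 := by
  push Not at h
  intro v hv
  induction hv using Submodule.span_induction with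
  | mem v hv =>
    obtain ⟨r, hr, rfl⟩ := hv
    have hb : ∀ i, |(r.2 i : ℝ) - r.1 i| ≤ N.bound := fun i => by
      have h2 := N.le_bound hr i
      have h4 : (0 : ℝ) ≤ r.1 i := Nat.cast_nonneg _
      have h5 : (0 : ℝ) ≤ r.2 i := Nat.cast_nonneg _
      rw [abs_le]; constructor <;> linarith
    have h1 := L.gap p hp (fun i => (r.2 i : ℤ) - (r.1 i : ℤ)) fun i => by
      push_cast; exact hb i
    have h2 := L.gap p hp (fun i => (r.1 i : ℤ) - (r.2 i : ℤ)) fun i => by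
      push_cast; rw [abs_sub_comm]; exact hb i
    push_cast at h1 h2
    rw [dot_sub_left] at h1 h2
    rw [dot_comm, dot_sub_left]
    have h3 := abs_lt.1 (h r hr)
    by_contra hne
    rcases lt_or_gt_of_ne hne with h4 | h4
    · linarith [h2 (by linarith), h3.1]
    · linarith [h1 h4, h3.2]
  | zero => simp [dot]
  | add u v _ _ hu hv =>
    simp only [dot, Pi.add_apply, mul_add, sum_add_distrib] at hu hv ⊢
    linarith
  | smul a v _ hv =>
    simp only [dot, Pi.smul_apply, smul_eq_mul] at hv ⊢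
    rw [← mul_zero a, ← hv, mul_sum]
    exact sum_congr rfl fun i _ => by ring

theorem eventually_compact (hN : N.WeaklyReversible) (hε : 0 < ε) (c : Fin d → ℝ) :
    ∃ K : Set (Fin d → ℝ), IsCompact K ∧ K ⊆ N.posClass c ∧
      ∀ x : ℝ → Fin d → ℝ, (∀ T, Traj N ε x T) → x 0 ∈ N.posClass c →
        ∃ T : ℝ, ∀ t ≥ T, x t ∈ K := by
  obtain ⟨L⟩ := exists_lyap (Fin d) N.one_le_bound (2 * N.R.card / ε ^ 2 + d * N.bound)
  let Flat : (Fin d → ℝ) → Prop := fun z => ∀ ρ > 0, ∃ p ∈ L.Y,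
    (∀ v ∈ N.stoich, dot p.1 v = 0) ∧ L.Φ z - ρ ≤ val p z
  have hval : ∀ p : (Fin d → ℝ) × ℝ, (∀ v ∈ N.stoich, dot p.1 v = 0) →
      ∀ z ∈ N.posClass c, ∀ z' ∈ N.posClass c, val p z = val p z' := by
    intro p hp z hz z' hz'
    have h1 := hp _ (Submodule.sub_mem _ hz.1 hz'.1)
    rw [sub_sub_sub_cancel_right, dot_sub_right] at h1
    simp only [val]; linarith
  have hflat : ∀ z ∈ N.posClass c, ∀ z' ∈ N.posClass c, Flat z → L.Φ z' ≤ L.Φ z → Flat z' := by
    intro z hz z' hz' hf hle ρ hρ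
    obtain ⟨p, hp, h1, h2⟩ := hf ρ hρ
    exact ⟨p, hp, h1, by rw [hval p h1 z' hz' z hz]; linarith⟩
  have hmin : ∀ z ∈ N.posClass c, ∀ z' ∈ N.posClass c, Flat z → L.Φ z ≤ L.Φ z' := by
    intro z hz z' hz' hf
    refine le_of_forall_pos_le_add fun ρ hρ => ?_
    obtain ⟨p, hp, h1, h2⟩ := hf ρ hρ
    have h3 := L.le p hp z' hz'.2
    rw [hval p h1 z' hz' z hz] at h3
    linarith
  have hclose : ∀ z ∈ N.posClass c, ∀ z' ∈ N.posClass c, Flat z → Flat z' →
      ∀ i, |log (z i) - log (z' i)| ≤ 2 * L.R := by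
    intro z hz z' hz' hf hf' i
    obtain ⟨ρ, hρ, h1⟩ := L.good z hz.2
    obtain ⟨ρ', hρ', h1'⟩ := L.good z' hz'.2
    obtain ⟨p, hp, h2, h3⟩ := hf (min ρ ρ') (lt_min hρ hρ')
    have h4 := abs_le.1 ((h1 p hp (by linarith [min_le_left ρ ρ'])).2 i)
    have h5 := abs_le.1 ((h1' p hp (by
      rw [hval p h2 z' hz' z hz]
      linarith [min_le_right ρ ρ', hmin z' hz' z hz hf'])).2 i)
    rw [abs_le]; constructor <;> linarith [h4.1, h4.2, h5.1, h5.2]
  have hmain : ∀ x : ℝ → Fin d → ℝ, (∀ T, Traj N ε x T) → x 0 ∈ N.posClass c →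
      ∃ T : ℝ, ∀ t ≥ T, x t ∈ N.posClass c ∧ Flat (x t) := by
    intro x hx h0
    obtain ⟨lo, hlo, hi, H⟩ := apriori hN hε h0.2
    have hb : ∀ t ≥ 0, ∀ i, lo ≤ x t i := fun t ht i =>
      (H x t (hx t).cont rfl (fun T' _ _ => hx T') t ⟨ht, le_rfl⟩ i).1
    have hpos : ∀ T, ∀ t ∈ Set.Icc 0 T, ∀ i, 0 < x t i := fun T t ht i =>
      hlo.trans_le (hb t ht.1 i)
    have hP : ∀ t ≥ 0, x t ∈ N.posClass c := fun t ht => by
      refine ⟨?_, hpos t t ⟨ht, le_rfl⟩⟩
      have := Submodule.add_mem _ ((hx t).sub_mem ⟨ht, le_rfl⟩) h0.1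
      rwa [sub_add_sub_cancel] at this
    have hex : ∃ t0 ≥ 0, Flat (x t0) := by
      by_contra hcon
      push Not at hcon
      obtain ⟨m, hm, hm'⟩ := exists_pos_le (fun r : N.R => ∏ j, lo ^ r.1.1 j)
        fun r => prod_pos fun j _ => pow_pos hlo _
      have hg := L.g_pos
      set κ : ℝ := ε * m * L.g / 3 with hκ
      have hκ0 : 0 < κ := by positivity
      have hdec : ∀ t ≥ 0, L.Φ (x t) ≤ L.Φ (x 0) - κ * (t - 0) := by
        intro t ht
        refine (hx t).lyap (hpos t) L.le le_rfl ht le_rfl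
          (fun w => ∃ r ∈ N.R,
            L.g ≤ |dot (fun i => (r.2 i : ℝ)) w - dot (fun i => (r.1 i : ℝ)) w|)
          (U := N.bound) (δ := 2 * N.R.card / ε ^ 2) ?_ ?_
        · rintro w ⟨r, hr, h1⟩ s hs k hk hw
          refine (dot_field_le N hN hε hk (hpos t s hs) hw hr).trans ?_
          have h2 : m ≤ ∏ j, x s j ^ r.1 j :=
            (hm' ⟨r, hr⟩).trans (prod_le_prod (fun j _ => (pow_pos hlo _).le)
              fun j _ => pow_le_pow_left₀ hlo.le (hb s hs.1 j) _)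
          have h3 : ε * m ≤ k r * ∏ j, x s j ^ r.1 j :=
            mul_le_mul (hk r hr).1 h2 hm.le (hε.le.trans (hk r hr).1)
          have h4 := mul_le_mul h3 h1 hg.le ((mul_pos hε hm).le.trans h3)
          rw [hκ]; linarith
        · intro s hs ρ hρ
          have h1 := hcon s hs.1
          simp only [Flat] at h1
          push Not at h1
          obtain ⟨ρ1, hρ1, h1⟩ := h1
          obtain ⟨p, hp, h2, h3⟩ := L.near_good (hpos t s hs) (lt_min hρ hρ1)
          refine ⟨p, hp, by linarith [min_le_left ρ ρ1], h3, ?_⟩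
          by_contra hn
          have h4 := h1 p hp (perp_of_not L hp hn)
          linarith [min_le_right ρ ρ1]
      set t : ℝ := (|L.Φ (x 0) + L.B| + 1) / κ with ht
      have ht0 : 0 ≤ t := by positivity
      have h1 := hdec t ht0
      have h2 := L.lower (x t) (hP t ht0).2
      have h3 : 0 ≤ ∑ i, x t i := sum_nonneg fun i _ => ((hP t ht0).2 i).le
      have h4 : κ * (t - 0) = |L.Φ (x 0) + L.B| + 1 := by rw [ht]; field_simp; ring
      linarith [le_abs_self (L.Φ (x 0) + L.B)]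
    obtain ⟨t0, ht0, hf⟩ := hex
    refine ⟨t0, fun t ht => ⟨hP t (ht0.trans ht), ?_⟩⟩
    exact hflat _ (hP t0 ht0) _ (hP t (ht0.trans ht)) hf
      ((hx t).lyap_full hN hε L (hpos t) ht0 ht le_rfl)
  by_cases hF : ∃ z ∈ N.posClass c, Flat z
  · obtain ⟨z, hz, hf⟩ := hF
    refine ⟨Set.Icc (fun i => exp (log (z i) - 2 * L.R)) (fun i => exp (log (z i) + 2 * L.R)) ∩
      (fun y => y - c) ⁻¹' N.stoich, ?_, ?_, ?_⟩
    · exact isCompact_Icc.inter_right
        (N.stoich.closed_of_finiteDimensional.preimage (continuous_id.sub continuous_const))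
    · exact fun y hy => ⟨hy.2, fun i => (exp_pos _).trans_le (hy.1.1 i)⟩
    · intro x hx h0
      obtain ⟨T, hT⟩ := hmain x hx h0
      refine ⟨T, fun t ht => ?_⟩
      obtain ⟨h1, h2⟩ := hT t ht
      have h3 := fun i => abs_le.1 (hclose _ h1 z hz h2 hf i)
      refine ⟨⟨fun i => ?_, fun i => ?_⟩, h1.1⟩
      · exact (le_log_iff_exp_le (h1.2 i)).1 (by linarith [(h3 i).1])
      · exact (log_le_iff_le_exp (h1.2 i)).1 (by linarith [(h3 i).2])
  · refine ⟨∅, isCompact_empty, Set.empty_subset _, fun x hx h0 => ?_⟩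
    obtain ⟨T, hT⟩ := hmain x hx h0
    exact absurd ⟨_, (hT T le_rfl).1, (hT T le_rfl).2⟩ hF

end Vale.Agent.P072
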