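import Mathlib

/-! Global existence and uniqueness for bounded Lipschitz Carathéodory equations. -/

namespace Vale.Agent.P072

open Real MeasureTheory Set

variable {E : Type*} [NormedAddCommGroup E] [NormedSpace ℝ E]

theorem integral_exp_le {c τ : ℝ} (hc : 0 < c) :
    ∫ s in (0 : ℝ)..τ, exp (c * s) ≤ exp (c * τ) / c := by
  have h : ∀ s ∈ uIcc 0 τ, HasDerivAt (fun s => exp (c * s) / c) (exp (c * s)) s := by
    intro s _
    have h1 := (((hasDerivAt_id s).const_mul c).exp).div_const c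
    simp only [id, mul_one] at h1
    exact h1.congr_deriv (by field_simp)
  rw [intervalIntegral.integral_eq_sub_of_hasDerivAt h
    ((by fun_prop : Continuous fun s => exp (c * s)).intervalIntegrable _ _)]
  have : 0 < exp (c * 0) / c := by positivity
  linarith

theorem integral_est {G : ℝ → E → E} {L m τ : ℝ} (hL : 0 ≤ L) (hm : 0 ≤ m) (hτ : 0 ≤ τ)
    (hlip : ∀ s z z', ‖G s z - G s z'‖ ≤ L * ‖z - z'‖) {u v : ℝ → E}
    (hu : IntervalIntegrable (fun s => G s (u s)) volume 0 τ)
    (hv : IntervalIntegrable (fun s => G s (v s)) volume 0 τ)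
    (huv : ∀ s ∈ Icc 0 τ, ‖u s - v s‖ ≤ m * exp ((2 * L + 1) * s)) :
    ‖(∫ s in (0 : ℝ)..τ, G s (u s)) - ∫ s in (0 : ℝ)..τ, G s (v s)‖ ≤
      m / 2 * exp ((2 * L + 1) * τ) := by
  rw [← intervalIntegral.integral_sub hu hv]
  have hc : 0 < 2 * L + 1 := by linarith
  refine (intervalIntegral.norm_integral_le_of_norm_le
    (g := fun s => L * m * exp ((2 * L + 1) * s)) hτ
    (Filter.Eventually.of_forall fun s hs => ?_)
    ((by fun_prop : Continuous fun s => L * m * exp ((2 * L + 1) * s)).intervalIntegrable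
      _ _)).trans ?_
  · refine (hlip s _ _).trans ?_
    rw [mul_assoc]
    exact mul_le_mul_of_nonneg_left (huv s ⟨hs.1.le, hs.2⟩) hL
  · rw [intervalIntegral.integral_const_mul]
    refine (mul_le_mul_of_nonneg_left (integral_exp_le hc) (mul_nonneg hL hm)).trans ?_
    rw [mul_div_assoc', div_le_iff₀ hc]
    have : 0 ≤ m * exp ((2 * L + 1) * τ) := by positivity
    nlinarith

theorem ode_unique {G : ℝ → E → E} {L T : ℝ} (hL : 0 ≤ L)
    (hlip : ∀ s z z', ‖G s z - G s z'‖ ≤ L * ‖z - z'‖) {u v : ℝ → E} {x₀ : E}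
    (huc : ContinuousOn u (Icc 0 T)) (hvc : ContinuousOn v (Icc 0 T))
    (hu : ∀ t ∈ Icc 0 T, IntervalIntegrable (fun s => G s (u s)) volume 0 t ∧
      u t = x₀ + ∫ s in (0 : ℝ)..t, G s (u s))
    (hv : ∀ t ∈ Icc 0 T, IntervalIntegrable (fun s => G s (v s)) volume 0 t ∧
      v t = x₀ + ∫ s in (0 : ℝ)..t, G s (v s)) :
    ∀ t ∈ Icc 0 T, u t = v t := by
  intro t ht
  have hc : ContinuousOn (fun s => ‖u s - v s‖ / exp ((2 * L + 1) * s)) (Icc 0 T) :=
    (huc.sub hvc).norm.div (by fun_prop) fun s _ => (exp_pos _).ne'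
  obtain ⟨τ, hτ, hmax⟩ := isCompact_Icc.exists_isMaxOn ⟨t, ht⟩ hc
  set m := ‖u τ - v τ‖ / exp ((2 * L + 1) * τ) with hm
  have hm0 : 0 ≤ m := by positivity
  have h1 : ∀ s ∈ Icc 0 T, ‖u s - v s‖ ≤ m * exp ((2 * L + 1) * s) := fun s hs =>
    (div_le_iff₀ (exp_pos _)).1 (hmax hs)
  have h2 := integral_est hL hm0 hτ.1 hlip (hu τ hτ).1 (hv τ hτ).1
    fun s hs => h1 s ⟨hs.1, hs.2.trans hτ.2⟩
  have h3 : u τ - v τ = (∫ s in (0 : ℝ)..τ, G s (u s)) - ∫ s in (0 : ℝ)..τ, G s (v s) := by
    rw [(hu τ hτ).2, (hv τ hτ).2]; abel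
  rw [← h3, ← div_le_iff₀ (exp_pos _), ← hm] at h2
  have h4 : m = 0 := by linarith
  have h5 := h1 t ht
  rw [h4, zero_mul] at h5
  exact sub_eq_zero.1 (norm_le_zero_iff.1 h5)

omit [NormedSpace ℝ E] in
theorem intervalIntegrable_of_bdd {f : ℝ → E} {M : ℝ} (hf : AEStronglyMeasurable f volume)
    (hM : ∀ s, ‖f s‖ ≤ M) (a b : ℝ) : IntervalIntegrable f volume a b := by
  rw [intervalIntegrable_iff]
  exact Measure.integrableOn_of_bounded (M := M) measure_Ioc_lt_top.ne hf
    (Filter.Eventually.of_forall hM)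

theorem ode_exists [CompleteSpace E] {G : ℝ → E → E} {L M : ℝ} (hL : 0 ≤ L)
    (hmeas : ∀ y : ℝ → E, Continuous y → AEStronglyMeasurable (fun s => G s (y s)) volume)
    (hM : ∀ s z, ‖G s z‖ ≤ M) (hlip : ∀ s z z', ‖G s z - G s z'‖ ≤ L * ‖z - z'‖) (x₀ : E) :
    ∃ x : ℝ → E, Continuous x ∧ ∀ t ≥ 0, x t = x₀ + ∫ s in (0 : ℝ)..t, G s (x s) := by
  have hM0 : 0 ≤ M := (norm_nonneg _).trans (hM 0 0)
  set c := 2 * L + 1 with hc
  have hc1 : 1 ≤ c := by linarith
  let path : BoundedContinuousFunction ℝ E → ℝ → E := fun z s => x₀ + exp (c * s) • z s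
  have hpath : ∀ z, Continuous (path z) := fun z => by
    have := z.continuous
    simp only [path]; fun_prop
  have hint : ∀ z a b, IntervalIntegrable (fun s => G s (path z s)) volume a b := fun z =>
    intervalIntegrable_of_bdd (hmeas _ (hpath z)) fun s => hM s _
  let op : BoundedContinuousFunction ℝ E → ℝ → E := fun z t =>
    (exp (c * max t 0))⁻¹ • ∫ s in (0 : ℝ)..max t 0, G s (path z s)
  have hopc : ∀ z, Continuous (op z) := fun z => by
    have h1 := (intervalIntegral.continuous_primitive (hint z) 0).comp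
      (continuous_id.max (continuous_const (y := (0 : ℝ))))
    exact ((by fun_prop : Continuous fun t : ℝ => exp (c * max t 0)).inv₀
      fun t => (exp_pos _).ne').smul h1
  have hopb : ∀ z t, ‖op z t‖ ≤ M := fun z t => by
    have h0 : 0 ≤ max t 0 := le_max_right _ _
    have h1 := intervalIntegral.norm_integral_le_of_norm_le_const (a := 0) (b := max t 0)
      (f := fun s => G s (path z s)) fun s _ => hM s _
    rw [sub_zero, abs_of_nonneg h0] at h1
    simp only [op, norm_smul, norm_inv, Real.norm_eq_abs, abs_of_pos (exp_pos _)]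
    rw [inv_mul_le_iff₀ (exp_pos _)]
    have h2 := add_one_le_exp (c * max t 0)
    have h3 : max t 0 ≤ exp (c * max t 0) := by nlinarith
    nlinarith
  let T : BoundedContinuousFunction ℝ E → BoundedContinuousFunction ℝ E := fun z =>
    BoundedContinuousFunction.ofNormedAddCommGroup (op z) (hopc z) M (hopb z)
  have hT : ContractingWith (1 / 2) T := by
    refine ⟨by norm_num, LipschitzWith.of_dist_le_mul fun z z' => ?_⟩
    rw [BoundedContinuousFunction.dist_le (by positivity)]
    intro t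
    have h0 : 0 ≤ max t 0 := le_max_right _ _
    have h1 := integral_est hL (dist_nonneg (x := z) (y := z')) h0 hlip (hint z _ _) (hint z' _ _)
      (fun s _ => by
        simp only [path, add_sub_add_left_eq_sub, ← smul_sub, norm_smul, Real.norm_eq_abs,
          abs_of_pos (exp_pos _)]
        rw [mul_comm, ← dist_eq_norm]
        exact mul_le_mul_of_nonneg_right (BoundedContinuousFunction.dist_coe_le_dist s)
          (exp_pos _).le)
    change dist (op z t) (op z' t) ≤ _
    rw [dist_eq_norm]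
    simp only [op, ← smul_sub, norm_smul, norm_inv, Real.norm_eq_abs, abs_of_pos (exp_pos _)]
    rw [inv_mul_le_iff₀ (exp_pos _)]
    refine h1.trans (le_of_eq ?_)
    push_cast; ring
  set z := hT.fixedPoint T with hz
  have hfix : T z = z := hT.fixedPoint_isFixedPt
  refine ⟨path z, hpath z, fun t ht => ?_⟩
  have h1 : z t = op z t := by
    conv_lhs => rw [← hfix]
    rfl
  have h2 : path z t = x₀ + exp (c * t) • z t := rfl
  rw [h2, h1]
  simp only [op, max_eq_left ht, smul_smul, mul_inv_cancel₀ (exp_pos _).ne', one_smul]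

end Vale.Agent.P072
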