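import Vale.Agent.P072.Final
import Vale.Agent.P072.Ode

/-! Permanence for time-dependent and for constant rates. -/

namespace Vale.Agent.P072

open Real MeasureTheory Set Topology

variable {d : ℕ} {N : Network d} {ε : ℝ}

/-- The pairing with `w` as a continuous linear map. -/
noncomputable def dotL (w : Fin d → ℝ) : (Fin d → ℝ) →L[ℝ] ℝ :=
  ∑ i, w i • ContinuousLinearMap.proj (R := ℝ) (φ := fun _ : Fin d => ℝ) i

theorem dotL_apply (w z : Fin d → ℝ) : dotL w z = dot w z := by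
  simp [dotL, dot]

theorem traj_of_int {x : ℝ → Fin d → ℝ} {T : ℝ} (hc : ContinuousOn x (Icc 0 T))
    {G : ℝ → Fin d → ℝ}
    (hG : ∀ t ∈ Icc 0 T, IntervalIntegrable G volume 0 t ∧ x t = x 0 + ∫ s in (0 : ℝ)..t, G s)
    (hk : ∀ s ∈ Icc 0 T, ∃ k, N.Rates ε k ∧ G s = N.field k (x s)) : Traj N ε x T := by
  refine ⟨hc, fun t t' h1 h2 h3 w κ H => ?_⟩
  obtain ⟨hi, he⟩ := hG t ⟨h1, h2.trans h3⟩
  obtain ⟨hi', he'⟩ := hG t' ⟨h1.trans h2, h3⟩
  have hint : IntervalIntegrable G volume t t' := hi.symm.trans hi'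
  have h4 : x t' - x t = ∫ s in t..t', G s := by
    rw [he, he', ← intervalIntegral.integral_interval_sub_left hi' hi]; abel
  have h5 : dot w (x t') - dot w (x t) = ∫ s in t..t', dotL w (G s) := by
    rw [← dot_sub_right, h4, (dotL w).intervalIntegral_comp_comm hint, dotL_apply]
  have h6 : ∫ s in t..t', dotL w (G s) ≤ ∫ _ in t..t', -κ := by
    refine intervalIntegral.integral_mono_on h2
      ⟨(dotL w).integrable_comp hint.1, (dotL w).integrable_comp hint.2⟩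
      intervalIntegrable_const fun s hs => ?_
    obtain ⟨k, hk1, hk2⟩ := hk s ⟨h1.trans hs.1, hs.2.trans h3⟩
    rw [dotL_apply, hk2]
    exact H s hs k hk1
  rw [intervalIntegral.integral_const, smul_eq_mul] at h6
  linarith

theorem IsIntSol.traj {k : ℝ → (Fin d → ℕ) × (Fin d → ℕ) → ℝ} (hk : ∀ t ≥ 0, N.Rates ε (k t))
    {x : ℝ → Fin d → ℝ} {I : Set ℝ} (hx : IsIntSol (fun t => N.field (k t)) x I) {T : ℝ}
    (hT : Icc 0 T ⊆ I) : Traj N ε x T :=
  traj_of_int (hx.1.mono hT) (fun t ht => hx.2 t (hT ht)) fun s hs => ⟨k s, hk s hs.1, rfl⟩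

/-- Projection onto a box. -/
def clamp (a b : ℝ) (z : Fin d → ℝ) : Fin d → ℝ := fun i => max a (min (z i) b)

theorem clamp_eq {a b : ℝ} {z : Fin d → ℝ} (h : ∀ i, a ≤ z i ∧ z i ≤ b) : clamp a b z = z := by
  funext i
  rw [clamp, min_eq_left (h i).2, max_eq_right (h i).1]

theorem clamp_mem (a b : ℝ) (z : Fin d → ℝ) :
    clamp a b z ∈ Icc (fun _ : Fin d => a) fun _ => max a b :=
  ⟨fun _ => le_max_left _ _, fun _ => max_le_max le_rfl (min_le_right _ _)⟩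

theorem clamp_lip (a b : ℝ) (z z' : Fin d → ℝ) : ‖clamp a b z - clamp a b z'‖ ≤ ‖z - z'‖ := by
  refine (pi_norm_le_iff_of_nonneg (norm_nonneg _)).2 fun i => ?_
  refine le_trans ?_ (norm_le_pi_norm (z - z') i)
  simp only [clamp, Pi.sub_apply, Real.norm_eq_abs]
  refine (abs_max_sub_max_le_max _ _ _ _).trans (max_le (by simp) ?_)
  exact (abs_min_sub_min_le_max _ _ _ _).trans (max_le le_rfl (by simp))

theorem continuous_clamp (a b : ℝ) : Continuous (clamp (d := d) a b) := by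
  unfold clamp; fun_prop

theorem truncated_bounds (N : Network d) (a b e : ℝ) :
    ∃ L ≥ 0, ∃ M : ℝ, ∀ k : (Fin d → ℕ) × (Fin d → ℕ) → ℝ, (∀ r ∈ N.R, |k r| ≤ e) →
      (∀ z, ‖N.field k (clamp a b z)‖ ≤ M) ∧
      ∀ z z', ‖N.field k (clamp a b z) - N.field k (clamp a b z')‖ ≤ L * ‖z - z'‖ := by
  have key : ∀ y : Fin d → ℕ, ∃ L ≥ 0, ∃ M : ℝ, (∀ z, |∏ j, clamp a b z j ^ y j| ≤ M) ∧
      ∀ z z', |∏ j, clamp a b z j ^ y j - ∏ j, clamp a b z' j ^ y j| ≤ L * ‖z - z'‖ := by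
    intro y
    have hcd : ContDiff ℝ 1 fun z : Fin d → ℝ => ∏ j, z j ^ y j :=
      contDiff_prod fun j _ => (contDiff_apply ℝ ℝ j).pow _
    have hK : IsCompact (Icc (fun _ : Fin d => a) fun _ => max a b) := isCompact_Icc
    obtain ⟨L, hL⟩ := hcd.contDiffOn.exists_lipschitzOnWith one_ne_zero (convex_Icc _ _) hK
    obtain ⟨M, hM⟩ := hK.exists_bound_of_continuousOn hcd.continuous.continuousOn
    refine ⟨L, L.2, M, fun z => hM _ (clamp_mem a b z), fun z z' => ?_⟩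
    have h1 := hL.dist_le_mul _ (clamp_mem a b z) _ (clamp_mem a b z')
    rw [Real.dist_eq, dist_eq_norm] at h1
    exact h1.trans (mul_le_mul_of_nonneg_left (clamp_lip a b z z') L.2)
  choose L hL M hM hlip using key
  refine ⟨∑ r ∈ N.R, |e| * L r.1 * ‖fun i => (r.2 i : ℝ) - (r.1 i : ℝ)‖,
    Finset.sum_nonneg fun r _ => by have := hL r.1; positivity,
    ∑ r ∈ N.R, |e| * M r.1 * ‖fun i => (r.2 i : ℝ) - (r.1 i : ℝ)‖, fun k hk => ⟨fun z => ?_,
      fun z z' => ?_⟩⟩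
  · rw [field_eq_sum]
    refine (norm_sum_le _ _).trans (Finset.sum_le_sum fun r hr => ?_)
    rw [norm_smul, Real.norm_eq_abs, abs_mul]
    exact mul_le_mul_of_nonneg_right (mul_le_mul ((hk r hr).trans (le_abs_self e)) (hM _ z)
      (abs_nonneg _) (abs_nonneg _)) (norm_nonneg _)
  · rw [field_eq_sum, field_eq_sum, ← Finset.sum_sub_distrib, Finset.sum_mul]
    refine (norm_sum_le _ _).trans (Finset.sum_le_sum fun r hr => ?_)
    rw [← sub_smul, ← mul_sub, norm_smul, Real.norm_eq_abs, abs_mul]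
    have h1 := mul_le_mul_of_nonneg_right (mul_le_mul ((hk r hr).trans (le_abs_self e))
      (hlip r.1 z z') (abs_nonneg _) (abs_nonneg _))
      (norm_nonneg fun i => (r.2 i : ℝ) - (r.1 i : ℝ))
    refine h1.trans (le_of_eq ?_)
    ring

theorem exists_global (hN : N.WeaklyReversible) (hε : 0 < ε)
    {k : ℝ → (Fin d → ℕ) × (Fin d → ℕ) → ℝ}
    (hm : ∀ r ∈ N.R, AEMeasurable (fun t => k t r) (volume.restrict (Ici 0)))
    (hk : ∀ t ≥ 0, N.Rates ε (k t)) {x₀ : Fin d → ℝ} (hx₀ : ∀ i, 0 < x₀ i) :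
    ∃ x : ℝ → Fin d → ℝ, x 0 = x₀ ∧ IsIntSol (fun t => N.field (k t)) x (Ici 0) ∧
      (∀ t ≥ 0, ∀ i, 0 < x t i) ∧
      ∀ T > 0, ∀ z : ℝ → Fin d → ℝ, z 0 = x₀ → IsIntSol (fun t => N.field (k t)) z (Ico 0 T) →
        ∀ t ∈ Ico 0 T, z t = x t := by
  obtain ⟨lo, hlo, hi, H⟩ := apriori hN hε hx₀
  obtain ⟨L, hL, M, hLM⟩ := truncated_bounds N (lo / 2) (hi + 1) ε⁻¹
  let k' : ℝ → (Fin d → ℕ) × (Fin d → ℕ) → ℝ := fun s r => (Ici 0).indicator (fun t => k t r) s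
  have hk'eq : ∀ s ≥ 0, k' s = k s := fun s hs => by
    funext r; exact indicator_of_mem (s := Ici 0) hs _
  have hk' : ∀ s, ∀ r ∈ N.R, |k' s r| ≤ ε⁻¹ := by
    intro s r hr
    by_cases hs : 0 ≤ s
    · rw [hk'eq s hs, abs_of_pos (hε.trans_le (hk s hs r hr).1)]
      exact (hk s hs r hr).2
    · have : k' s r = 0 := indicator_of_notMem (s := Ici 0) hs _
      rw [this, abs_zero]; positivity
  let G : ℝ → (Fin d → ℝ) → Fin d → ℝ := fun s z => N.field (k' s) (clamp (lo / 2) (hi + 1) z)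
  have hGmeas : ∀ y : ℝ → Fin d → ℝ, Continuous y →
      AEStronglyMeasurable (fun s => G s (y s)) volume := by
    intro y hy
    simp only [G, field_eq_sum]
    refine Finset.aestronglyMeasurable_fun_sum _ fun r hr => ?_
    refine AEStronglyMeasurable.smul_const (AEStronglyMeasurable.mul ?_ ?_) _
    · exact ((aemeasurable_indicator_iff measurableSet_Ici).2 (hm r hr)).aestronglyMeasurable
    · have := (continuous_clamp (lo / 2) (hi + 1)).comp hy
      exact (continuous_finsetProd _ fun j _ =>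
        ((continuous_apply j).comp this).pow _).aestronglyMeasurable
  have hGM : ∀ s z, ‖G s z‖ ≤ M := fun s => (hLM _ (hk' s)).1
  have hGL : ∀ s z z', ‖G s z - G s z'‖ ≤ L * ‖z - z'‖ := fun s => (hLM _ (hk' s)).2
  have hGeq : ∀ s ≥ 0, ∀ z : Fin d → ℝ, (∀ i, lo / 2 ≤ z i ∧ z i ≤ hi + 1) →
      G s z = N.field (k s) z := fun s hs z hz => by
    simp only [G]; rw [hk'eq s hs, clamp_eq hz]
  obtain ⟨x, hxc, hx⟩ := ode_exists hL hGmeas hGM hGL x₀
  have hx0 : x 0 = x₀ := by simpa using hx 0 le_rfl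
  have hint : ∀ t, IntervalIntegrable (fun s => G s (x s)) volume 0 t := fun t =>
    intervalIntegrable_of_bdd (hGmeas x hxc) (fun s => hGM s _) _ _
  have hbox : ∀ t ≥ 0, ∀ i, lo ≤ x t i ∧ x t i ≤ hi := fun t ht =>
    H x t hxc.continuousOn hx0 (fun T' _ hb => traj_of_int hxc.continuousOn
      (fun s hs => ⟨hint s, by rw [hx0]; exact hx s hs.1⟩)
      fun s hs => ⟨k s, hk s hs.1, hGeq s hs.1 _ (hb s hs)⟩) t ⟨ht, le_rfl⟩
  have hbig : ∀ z : Fin d → ℝ, (∀ i, lo ≤ z i ∧ z i ≤ hi) →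
      ∀ i, lo / 2 ≤ z i ∧ z i ≤ hi + 1 := fun z hz i => by
    constructor <;> linarith [(hz i).1, (hz i).2]
  have hcongr : ∀ (y : ℝ → Fin d → ℝ) (t : ℝ), 0 ≤ t →
      (∀ s ∈ Icc 0 t, ∀ i, lo ≤ y s i ∧ y s i ≤ hi) →
      EqOn (fun s => G s (y s)) (fun s => N.field (k s) (y s)) (uIcc 0 t) := by
    intro y t ht hy s hs
    rw [uIcc_of_le ht] at hs
    exact hGeq s hs.1 _ (hbig _ (hy s hs))
  refine ⟨x, hx0, ⟨hxc.continuousOn, fun t ht => ?_⟩, fun t ht i => hlo.trans_le (hbox t ht i).1,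
    fun T _ z hz0 hz t ht => ?_⟩
  · have h1 := hcongr x t ht fun s hs => hbox s hs.1
    refine ⟨(hint t).congr (h1.mono uIoc_subset_uIcc), ?_⟩
    rw [hx0, ← intervalIntegral.integral_congr h1]
    exact hx t ht
  · have hsub : Icc 0 t ⊆ Ico 0 T := Icc_subset_Ico_right ht.2
    have hzbox := H z t (hz.1.mono hsub) hz0
      fun T' hT' _ => hz.traj hk ((Icc_subset_Icc_right hT'.2).trans hsub)
    refine ode_unique hL hGL (x₀ := x₀) (hz.1.mono hsub) hxc.continuousOn (fun s hs => ?_)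
      (fun s hs => ⟨hint s, hx s hs.1⟩) t ⟨ht.1, le_rfl⟩
    have h1 := hcongr z s hs.1 fun s' hs' => hzbox s' ⟨hs'.1, hs'.2.trans hs.2⟩
    obtain ⟨h2, h3⟩ := hz.2 s (hsub hs)
    refine ⟨h2.congr (h1.symm.mono uIoc_subset_uIcc), ?_⟩
    rw [intervalIntegral.integral_congr h1, ← hz0]
    exact h3

theorem permanent_var (hN : N.WeaklyReversible) (hε : 0 < ε) (c : Fin d → ℝ) :
    ∃ K : Set (Fin d → ℝ), IsCompact K ∧ K ⊆ N.posClass c ∧
      ∀ k : ℝ → (Fin d → ℕ) × (Fin d → ℕ) → ℝ, (∀ t ≥ 0, N.Rates ε (k t)) →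
        ∀ x : ℝ → Fin d → ℝ, x 0 ∈ N.posClass c →
          IsIntSol (fun t => N.field (k t)) x (Ici 0) → ∃ T : ℝ, ∀ t ≥ T, x t ∈ K := by
  obtain ⟨K, h1, h2, h3⟩ := eventually_compact hN hε c
  exact ⟨K, h1, h2, fun k hk x h0 hx => h3 x (fun T => hx.traj hk Icc_subset_Ici_self) h0⟩

theorem continuous_field (N : Network d) (k : (Fin d → ℕ) × (Fin d → ℕ) → ℝ) :
    Continuous (N.field k) := by
  unfold Network.field; fun_prop

theorem IsSol.intSol {f : (Fin d → ℝ) → Fin d → ℝ} (hf : Continuous f) {x : ℝ → Fin d → ℝ}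
    {I : Set ℝ} (hx : IsSol f x I) (hI : ∀ t ∈ I, 0 ≤ t ∧ Icc 0 t ⊆ I) :
    IsIntSol (fun _ => f) x I := by
  have hc : ContinuousOn x I := fun t ht => (hx t ht).continuousWithinAt
  refine ⟨hc, fun t ht => ?_⟩
  obtain ⟨h0, hsub⟩ := hI t ht
  have h1 : IntervalIntegrable (fun s => f (x s)) volume 0 t :=
    (hf.comp_continuousOn (hc.mono hsub)).intervalIntegrable_of_Icc h0
  refine ⟨h1, ?_⟩
  rw [intervalIntegral.integral_eq_sub_of_hasDeriv_right_of_le h0 (hc.mono hsub) ?_ h1]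
  · abel
  · intro s hs
    exact (hx s (hsub (Ioo_subset_Icc_self hs))).mono_of_mem_nhdsWithin
      (Filter.mem_of_superset (mem_nhdsWithin_of_mem_nhds (Icc_mem_nhds hs.1 hs.2)) hsub)

theorem IsIntSol.isSol {f : (Fin d → ℝ) → Fin d → ℝ} (hf : Continuous f) {x : ℝ → Fin d → ℝ}
    (hx : IsIntSol (fun _ => f) x (Ici 0)) : IsSol f x (Ici 0) := by
  intro t ht
  have hc : Continuous fun s : ℝ => f (x (max s 0)) :=
    hf.comp (hx.1.comp_continuous (by fun_prop) fun s => le_max_right s 0)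
  have h1 := ((hc.integral_hasStrictDerivAt 0 t).hasDerivAt.const_add (x 0)).hasDerivWithinAt (s := Ici 0)
  rw [max_eq_left ht] at h1
  refine h1.congr (fun s hs => ?_) ?_
  · rw [(hx.2 s hs).2]
    congr 1
    refine intervalIntegral.integral_congr fun u hu => ?_
    rw [uIcc_of_le hs] at hu
    simp only [max_eq_left hu.1]
  · rw [(hx.2 t ht).2]
    congr 1
    refine intervalIntegral.integral_congr fun u hu => ?_
    rw [uIcc_of_le ht] at hu
    simp only [max_eq_left hu.1]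

theorem permanent_const (hN : N.WeaklyReversible) {k : (Fin d → ℕ) × (Fin d → ℕ) → ℝ}
    (hk : ∀ r ∈ N.R, 0 < k r) (c : Fin d → ℝ) : PermanentOn (N.field k) (N.posClass c) := by
  obtain ⟨ε, hε, hε'⟩ := exists_pos_le (fun r : N.R => min (k r) (k r)⁻¹)
    fun r => lt_min (hk r r.2) (inv_pos.2 (hk r r.2))
  have hR : N.Rates ε k := fun r hr =>
    ⟨(hε' ⟨r, hr⟩).trans (min_le_left _ _),
      (le_inv_comm₀ hε (hk r hr)).1 ((hε' ⟨r, hr⟩).trans (min_le_right _ _))⟩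
  have hf := continuous_field N k
  refine ⟨fun x₀ hx₀ => ?_, ?_⟩
  · obtain ⟨x, h1, h2, h3, h4⟩ := exists_global hN hε (k := fun _ => k)
      (fun r _ => aemeasurable_const) (fun _ _ => hR) hx₀.2
    exact ⟨x, h1, h2.isSol hf, h3, fun T hT z hz0 hz => h4 T hT z hz0
      (hz.intSol hf fun t ht => ⟨ht.1, Icc_subset_Ico_right ht.2⟩)⟩
  · obtain ⟨K, h1, h2, h3⟩ := permanent_var hN hε c
    exact ⟨K, h1, h2, fun x h0 hx => h3 (fun _ => k) (fun _ _ => hR) x h0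
      (hx.intSol hf fun t ht => ⟨ht, Icc_subset_Ici_self⟩)⟩

end Vale.Agent.P072
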