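import Vale.Agent.P072.Chain

/-! The tree of candidates and its invariants. -/

namespace Vale.Agent.P072

open Finset

/-- Numerical parameters of the construction, level by level. -/
structure Par (n : ℕ) where
  U : ℕ → ℝ
  Λ : ℕ → ℝ
  g : ℕ → ℝ
  R : ℕ → ℝ
  Db : ℕ → ℝ
  Γ : ℝ
  U_one : ∀ k, 1 ≤ U k
  U_step : ∀ k < n, U k = 2 * U (k + 1) ^ 2
  U_le : ∀ k, U k ≤ Γ
  Λ_two : ∀ k, 2 ≤ Λ k
  Λ_step : ∀ k < n, Λ k = U (k + 1) ^ 2 * ((Λ (k + 1) + Γ) * (1 + 2 * Λ (k + 1)))
  g_zero : g 0 = 1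
  g_step : ∀ k, g (k + 1) = g k / U (k + 1) ^ 2 / (2 * (n * U (k + 1) * R k) + 2)
  R_zero : R 0 = 0
  R_step : ∀ k, R (k + 1) = R k + n * U (k + 1) * R k + 1 + (Λ (k + 1) + Γ) * Db k
  Db_zero : Db 0 = 1
  Db_step : ∀ k, Db (k + 1) = 2 * (Λ (k + 1) + Γ) * Db k

theorem exists_par (n : ℕ) (U0 : ℝ) (hU : 1 ≤ U0) :
    ∃ P : Par n, P.U n = U0 ∧ P.Λ n = n * U0 * (P.Γ + 2) + 2 := by
  let Ur : ℕ → ℝ := fun j => Nat.rec U0 (fun _ u => 2 * u ^ 2) j
  have Ur0 : Ur 0 = U0 := rfl
  have Urs : ∀ j, Ur (j + 1) = 2 * Ur j ^ 2 := fun j => rfl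
  have Ur1 : ∀ j, 1 ≤ Ur j := by
    intro j
    induction j with
    | zero => exact hU
    | succ j ih => rw [Urs]; nlinarith
  have Urm : Monotone Ur := monotone_nat_of_le_succ fun j => by
    rw [Urs]; nlinarith [Ur1 j]
  let Γ : ℝ := Ur n
  have hΓ : 1 ≤ Γ := Ur1 n
  let Lr : ℕ → ℝ := fun j => Nat.rec (n * U0 * (Γ + 2) + 2)
    (fun j l => Ur j ^ 2 * ((l + Γ) * (1 + 2 * l))) j
  have Lr0 : Lr 0 = n * U0 * (Γ + 2) + 2 := rfl
  have Lrs : ∀ j, Lr (j + 1) = Ur j ^ 2 * ((Lr j + Γ) * (1 + 2 * Lr j)) := fun j => rfl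
  have Lr2 : ∀ j, 2 ≤ Lr j := by
    intro j
    induction j with
    | zero =>
      rw [Lr0]
      have : 0 ≤ (n : ℝ) * U0 * (Γ + 2) := by positivity
      linarith
    | succ j ih =>
      rw [Lrs]
      have h1 : 1 ≤ Ur j ^ 2 := by nlinarith [Ur1 j]
      have h2 : 2 ≤ (Lr j + Γ) * (1 + 2 * Lr j) := by nlinarith
      nlinarith
  let U : ℕ → ℝ := fun k => Ur (n - k)
  let Λ : ℕ → ℝ := fun k => Lr (n - k)
  let Db : ℕ → ℝ := fun k => Nat.rec 1 (fun k d => 2 * (Λ (k + 1) + Γ) * d) k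
  let R : ℕ → ℝ := fun k => Nat.rec 0
    (fun k r => r + n * U (k + 1) * r + 1 + (Λ (k + 1) + Γ) * Db k) k
  let g : ℕ → ℝ := fun k => Nat.rec 1
    (fun k x => x / U (k + 1) ^ 2 / (2 * (n * U (k + 1) * R k) + 2)) k
  refine ⟨⟨U, Λ, g, R, Db, Γ, fun k => Ur1 _, ?_, fun k => Urm (Nat.sub_le _ _), fun k => Lr2 _,
    ?_, rfl, fun k => rfl, rfl, fun k => rfl, rfl, fun k => rfl⟩, ?_, ?_⟩
  · intro k hk
    have : n - k = (n - (k + 1)) + 1 := by omega
    simp only [U]; rw [this, Urs]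
  · intro k hk
    have : n - k = (n - (k + 1)) + 1 := by omega
    simp only [U, Λ]; rw [this, Lrs]
  · simp only [U]; rw [Nat.sub_self, Ur0]
  · simp only [Λ]; rw [Nat.sub_self, Lr0]

namespace Par

variable {n : ℕ} (P : Par n)

theorem Γ_one : 1 ≤ P.Γ := (P.U_one 0).trans (P.U_le 0)

theorem Db_one (k : ℕ) : 1 ≤ P.Db k := by
  induction k with
  | zero => rw [P.Db_zero]
  | succ k ih =>
    rw [P.Db_step]
    have := P.Λ_two (k + 1); have := P.Γ_one
    nlinarith

theorem R_nonneg (k : ℕ) : 0 ≤ P.R k := by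
  induction k with
  | zero => rw [P.R_zero]
  | succ k ih =>
    rw [P.R_step]
    have := P.Λ_two (k + 1); have := P.Γ_one; have := P.Db_one k; have := P.U_one (k + 1)
    positivity

theorem R_mono : Monotone P.R := monotone_nat_of_le_succ fun k => by
  rw [P.R_step]
  have := P.Λ_two (k + 1); have := P.Γ_one; have := P.Db_one k; have := P.U_one (k + 1)
  have := P.R_nonneg k
  have h1 : 0 ≤ (n : ℝ) * P.U (k + 1) * P.R k := by positivity
  have h2 : 0 ≤ (P.Λ (k + 1) + P.Γ) * P.Db k := by positivity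
  linarith

theorem g_pos (k : ℕ) : 0 < P.g k := by
  induction k with
  | zero => rw [P.g_zero]; exact one_pos
  | succ k ih =>
    rw [P.g_step]
    have := P.U_one (k + 1); have := P.R_nonneg k
    positivity

theorem g_anti : Antitone P.g := antitone_nat_of_succ_le fun k => by
  rw [P.g_step]
  have h0 := P.U_one (k + 1); have := P.R_nonneg k; have := P.g_pos k
  have h1 : 0 ≤ (n : ℝ) * P.U (k + 1) * P.R k := by positivity
  have h2 : 1 ≤ P.U (k + 1) ^ 2 := by nlinarith
  calc P.g k / P.U (k + 1) ^ 2 / (2 * (n * P.U (k + 1) * P.R k) + 2)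
      ≤ P.g k / P.U (k + 1) ^ 2 := div_le_self (by positivity) (by linarith)
    _ ≤ P.g k := div_le_self this.le h2

theorem g_le_one (k : ℕ) : P.g k ≤ 1 := P.g_zero ▸ P.g_anti (Nat.zero_le k)

end Par

/-- Pairing of an integer vector with the first `k` entries of a real sequence. -/
def pair (k : ℕ) (u : ℕ → ℤ) (s : ℕ → ℝ) : ℝ := ∑ j ∈ range k, (u j : ℝ) * s j

theorem pair_succ (k : ℕ) (u : ℕ → ℤ) (s : ℕ → ℝ) :
    pair (k + 1) u s = pair k u s + u k * s k := by
  simp [pair, sum_range_succ]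

theorem pair_congr {k : ℕ} (u : ℕ → ℤ) {s s' : ℕ → ℝ} (h : ∀ j < k, s j = s' j) :
    pair k u s = pair k u s' :=
  sum_congr rfl fun j hj => by rw [h j (mem_range.1 hj)]

theorem pair_comb (k : ℕ) (a b : ℤ) (u v : ℕ → ℤ) (s : ℕ → ℝ) :
    pair k (fun j => a * u j - b * v j) s = a * pair k u s - b * pair k v s := by
  simp only [pair, mul_sum, ← sum_sub_distrib]
  refine sum_congr rfl fun j _ => ?_
  push_cast; ring

theorem pair_neg (k : ℕ) (u : ℕ → ℤ) (s : ℕ → ℝ) :
    pair k (fun j => -u j) s = -pair k u s := by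
  simp only [pair, ← sum_neg_distrib]
  refine sum_congr rfl fun j _ => ?_
  push_cast; ring

theorem pair_single {k j : ℕ} (hj : j < k) (s : ℕ → ℝ) :
    pair k (fun i => if i = j then 1 else 0) s = s j := by
  simp only [pair]
  rw [sum_eq_single j]
  · simp
  · intro b _ hb; simp [hb]
  · intro h; exact absurd (mem_range.2 hj) h

variable {n : ℕ} (P : Par n)

/-- The walls at level `k`. -/
def Lset (k : ℕ) (s e : ℕ → ℝ) : Set (ℝ × ℝ) :=
  {p | ∃ (u : ℕ → ℤ) (a : ℤ), (∀ j, |(u j : ℝ)| ≤ P.U (k + 1)) ∧ 1 ≤ a ∧ (a : ℝ) ≤ P.U (k + 1) ∧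
    p = (pair k u s / a, pair k u e / a)}

/-- The previous level, which bounds the new one from above. -/
def Tset (k : ℕ) (s e : ℕ → ℝ) : Set (ℝ × ℝ) := {p | ∃ j, j + 1 = k ∧ p = (s j, e j)}

/-- Admissible choices at level `k`. -/
def AdmAt (k : ℕ) (s e : ℕ → ℝ) (D : ℝ) (a b c : ℝ) : Prop :=
  Adm (Lset P k s e) (Tset k s e) (P.Λ (k + 1)) P.Γ D (P.g (k + 1)) (P.R (k + 1)) a b c

/-- Valid sequences up to level `m`. -/
def Valid (m : ℕ) (s e D : ℕ → ℝ) : Prop :=
  D 0 = 1 ∧ ∀ k < m, AdmAt P k s e (D k) (s k) (e k) (D (k + 1))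

/-- The invariant. -/
structure Inv (k : ℕ) (s e : ℕ → ℝ) (D : ℝ) : Prop where
  pos : ∀ u : ℕ → ℤ, (∀ j, |(u j : ℝ)| ≤ P.U k) → 0 < pair k u s →
    P.g k ≤ pair k u s ∧ P.Λ k * D ≤ pair k u e
  zero : ∀ u : ℕ → ℤ, (∀ j, |(u j : ℝ)| ≤ P.U k) → pair k u s = 0 → |pair k u e| ≤ P.Γ * D
  near : ∀ j < k, |s j - e j| ≤ P.R k
  D_one : 1 ≤ D
  D_le : D ≤ P.Db k

variable {P}

theorem Inv.wallHyp {k : ℕ} {s e : ℕ → ℝ} {D : ℝ} (hk : k < n) (h : Inv P k s e D) :
    WallHyp (Lset P k s e) (Tset k s e) (P.Λ (k + 1)) P.Γ (P.g k / P.U (k + 1) ^ 2)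
      (n * P.U (k + 1) * P.R k) D (P.Db k) (P.g (k + 1)) (P.R (k + 1)) := by
  have hU := P.U_one (k + 1)
  have hU2 : 1 ≤ P.U (k + 1) ^ 2 := by nlinarith
  have hR := P.R_nonneg k
  have hg := P.g_pos k
  have hD := h.D_one
  have hΓ := P.Γ_one
  -- differences of two walls
  have diff : ∀ (u u' : ℕ → ℤ) (a a' : ℤ), (∀ j, |(u j : ℝ)| ≤ P.U (k + 1)) →
      (∀ j, |(u' j : ℝ)| ≤ P.U (k + 1)) → 1 ≤ a → (a : ℝ) ≤ P.U (k + 1) → 1 ≤ a' →
      (a' : ℝ) ≤ P.U (k + 1) →
      (∀ j, |((a * u' j - a' * u j : ℤ) : ℝ)| ≤ P.U k) ∧ (1 : ℝ) ≤ a * a' ∧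
        (a : ℝ) * a' ≤ P.U (k + 1) ^ 2 ∧
        ∀ t : ℕ → ℝ, pair k (fun j => a * u' j - a' * u j) t =
          (a * a') * (pair k u' t / a' - pair k u t / a) := by
    intro u u' a a' hu hu' ha haU ha' haU'
    have ha1 : (1 : ℝ) ≤ a := by exact_mod_cast ha
    have ha1' : (1 : ℝ) ≤ a' := by exact_mod_cast ha'
    refine ⟨fun j => ?_, by nlinarith, by nlinarith, fun t => ?_⟩
    · rw [P.U_step k hk]
      push_cast
      have h1 : |(a : ℝ) * u' j| ≤ P.U (k + 1) * P.U (k + 1) := by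
        rw [abs_mul, abs_of_pos (by linarith : (0 : ℝ) < a)]
        exact mul_le_mul haU (hu' j) (abs_nonneg _) (by linarith)
      have h2 : |(a' : ℝ) * u j| ≤ P.U (k + 1) * P.U (k + 1) := by
        rw [abs_mul, abs_of_pos (by linarith : (0 : ℝ) < a')]
        exact mul_le_mul haU' (hu j) (abs_nonneg _) (by linarith)
      have h3 := abs_sub ((a : ℝ) * u' j) ((a' : ℝ) * u j)
      nlinarith
    · rw [pair_comb]
      field_simp
  refine ⟨P.Λ_two _, hΓ, by positivity, ?_, by positivity, hD, h.D_le, P.g_pos _, ?_, ?_,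
    ?_, ?_, ?_, ?_, ?_⟩
  · exact (div_le_self hg.le hU2).trans (P.g_le_one k)
  · rw [P.g_step, div_mul_cancel₀]; positivity
  · rw [P.R_step]; linarith
  · rintro p ⟨u, a, hu, ha, haU, rfl⟩ q ⟨u', a', hu', ha', haU', rfl⟩ hlt
    obtain ⟨h1, h2, h3, h4⟩ := diff u u' a a' hu hu' ha haU ha' haU'
    simp only at hlt ⊢
    have h5 : 0 < pair k (fun j => a * u' j - a' * u j) s := by
      rw [h4]; exact mul_pos (by linarith) (by linarith)
    obtain ⟨h6, h7⟩ := h.pos _ h1 h5
    rw [h4] at h6 h7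
    constructor
    · rw [div_le_iff₀ (by positivity)]
      have : 0 ≤ pair k u' s / a' - pair k u s / a := by linarith
      nlinarith
    · rw [P.Λ_step k hk] at h7
      set X := (P.Λ (k + 1) + P.Γ) * (1 + 2 * P.Λ (k + 1)) with hX
      have hX0 : 0 ≤ X * D := by
        have := P.Λ_two (k + 1)
        positivity
      set Y := pair k u' e / a' - pair k u e / a with hY
      have h8 : ((a : ℝ) * a') * (X * D) ≤ (a * a') * Y := by nlinarith
      exact le_of_mul_le_mul_left h8 (by linarith)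
  · rintro p ⟨u, a, hu, ha, haU, rfl⟩ q ⟨u', a', hu', ha', haU', rfl⟩ heq
    obtain ⟨h1, h2, h3, h4⟩ := diff u u' a a' hu hu' ha haU ha' haU'
    simp only at heq ⊢
    have h5 : pair k (fun j => a * u' j - a' * u j) s = 0 := by
      rw [h4, heq]; simp
    have h6 := h.zero _ h1 h5
    rw [h4, abs_mul, abs_of_pos (by linarith : (0 : ℝ) < a * a')] at h6
    rw [abs_sub_comm]
    nlinarith [abs_nonneg (pair k u' e / a' - pair k u e / a)]
  · rintro p ⟨u, a, hu, ha, haU, rfl⟩
    have ha1 : (1 : ℝ) ≤ a := by exact_mod_cast ha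
    simp only
    rw [← sub_div, abs_div, abs_of_pos (by linarith : (0 : ℝ) < a)]
    refine (div_le_self (abs_nonneg _) ha1).trans ?_
    simp only [pair, ← sum_sub_distrib]
    refine (abs_sum_le_sum_abs _ _).trans ?_
    have : ∀ j ∈ range k, |(u j : ℝ) * s j - u j * e j| ≤ P.U (k + 1) * P.R k := by
      intro j hj
      rw [← mul_sub, abs_mul]
      exact mul_le_mul (hu j) (h.near j (mem_range.1 hj)) (abs_nonneg _) (by linarith)
    refine (sum_le_card_nsmul _ _ _ this).trans ?_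
    rw [card_range, nsmul_eq_mul, mul_assoc]
    exact mul_le_mul_of_nonneg_right (by exact_mod_cast hk.le) (by positivity)
  · rintro p ⟨j, hj, rfl⟩
    refine ⟨fun i => if i = j then 1 else 0, 1, fun i => ?_, le_rfl, by simpa using hU, ?_⟩
    · by_cases hi : i = j <;> simp [hi] <;> linarith
    · rw [pair_single (by omega), pair_single (by omega)]; simp
  · rintro p ⟨j, hj, rfl⟩ q ⟨j', hj', rfl⟩
    have : j = j' := by omega
    rw [this]

theorem Inv.step {k : ℕ} {s e : ℕ → ℝ} {D D' : ℝ} (hk : k < n) (h : Inv P k s e D)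
    (ha : AdmAt P k s e D (s k) (e k) D') : Inv P (k + 1) s e D' := by
  have W := h.wallHyp hk
  have hU := P.U_one (k + 1)
  have hUk : P.U (k + 1) ≤ P.U k := by rw [P.U_step k hk]; nlinarith
  have hD := h.D_one
  have hΓ := P.Γ_one
  have hΛ := P.Λ_two (k + 1)
  obtain ⟨hD1, hD2⟩ := W.D_le ha
  have hg := P.g_pos (k + 1)
  -- the wall attached to a vector with nonzero last entry
  have wall : ∀ u : ℕ → ℤ, (∀ j, |(u j : ℝ)| ≤ P.U (k + 1)) → 0 < u k →
      ∃ p ∈ Lset P k s e, pair (k + 1) u s = u k * (s k - p.1) ∧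
        pair (k + 1) u e = u k * (e k - p.2) := by
    intro u hu hpos
    have h1 : (0 : ℝ) < u k := by exact_mod_cast hpos
    refine ⟨_, ⟨fun j => -u j, u k, fun j => by simpa using hu j, hpos,
      (le_abs_self _).trans (hu k), rfl⟩, ?_, ?_⟩
    · simp only [pair_succ, pair_neg]; field_simp; ring
    · simp only [pair_succ, pair_neg]; field_simp; ring
  have hneg : ∀ u : ℕ → ℤ, (∀ j, |(u j : ℝ)| ≤ P.U (k + 1)) →
      ∀ j, |((-u j : ℤ) : ℝ)| ≤ P.U (k + 1) := fun u hu j => by simpa using hu j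
  refine ⟨fun u hu hpos => ?_, fun u hu hz => ?_, fun j hj => ?_, by linarith, ?_⟩
  · rcases lt_trichotomy (u k) 0 with hlt | heq | hgt
    · obtain ⟨p, hp, h1, h2⟩ := wall (fun j => -u j) (hneg u hu) (by simpa using hlt)
      rw [pair_neg] at h1 h2
      have h3 : (1 : ℝ) ≤ ((-u k : ℤ) : ℝ) := by exact_mod_cast (by omega : 1 ≤ -u k)
      have h4 : s k < p.1 := by
        by_contra hc
        have : 0 ≤ ((-u k : ℤ) : ℝ) * (s k - p.1) := mul_nonneg (by linarith) (by linarith)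
        linarith
      obtain ⟨h5, h6⟩ := W.above ha hp h4
      have h7 : 0 ≤ P.Λ (k + 1) * D' := mul_nonneg (by linarith) (by linarith)
      constructor <;> nlinarith
    · have h1 : pair (k + 1) u s = pair k u s := by rw [pair_succ, heq]; simp
      have h2 : pair (k + 1) u e = pair k u e := by rw [pair_succ, heq]; simp
      rw [h1] at hpos ⊢
      rw [h2]
      obtain ⟨h3, h4⟩ := h.pos u (fun j => (hu j).trans hUk) hpos
      refine ⟨(P.g_anti (Nat.le_succ k)).trans h3, le_trans ?_ h4⟩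
      rw [P.Λ_step k hk]
      have h5 : 1 ≤ P.U (k + 1) ^ 2 := by nlinarith
      have h6 : P.Λ (k + 1) * D' ≤ (P.Λ (k + 1) + P.Γ) * (1 + 2 * P.Λ (k + 1)) * D := by
        have : P.Λ (k + 1) * D' ≤ P.Λ (k + 1) * (2 * (P.Λ (k + 1) + P.Γ) * D) :=
          mul_le_mul_of_nonneg_left hD2 (by linarith)
        have : 0 ≤ (P.Λ (k + 1) + P.Γ) * D := by positivity
        nlinarith
      have h7 : 0 ≤ (P.Λ (k + 1) + P.Γ) * (1 + 2 * P.Λ (k + 1)) * D := by positivity
      nlinarith
    · obtain ⟨p, hp, h1, h2⟩ := wall u hu hgt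
      have h3 : (1 : ℝ) ≤ (u k : ℝ) := by exact_mod_cast hgt
      have h4 : p.1 < s k := by
        by_contra hc
        have : (u k : ℝ) * (s k - p.1) ≤ 0 :=
          mul_nonpos_of_nonneg_of_nonpos (by linarith) (by linarith)
        linarith
      obtain ⟨h5, h6⟩ := W.below ha hp h4
      have h7 : 0 ≤ P.Λ (k + 1) * D' := mul_nonneg (by linarith) (by linarith)
      constructor <;> nlinarith
  · have key : ∀ u : ℕ → ℤ, (∀ j, |(u j : ℝ)| ≤ P.U (k + 1)) → 0 < u k →
        pair (k + 1) u s = 0 → |pair (k + 1) u e| ≤ P.Γ * D' := by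
      intro u hu hgt hz
      obtain ⟨p, hp, h1, h2⟩ := wall u hu hgt
      have h3 : (0 : ℝ) < (u k : ℝ) := by exact_mod_cast hgt
      have h4 : s k = p.1 := by
        rw [hz] at h1
        rcases mul_eq_zero.1 h1.symm with h5 | h5 <;> linarith
      have h5 := W.level ha hp h4
      rw [h2, abs_mul]
      exact mul_le_mul ((hu k).trans (P.U_le _)) h5 (abs_nonneg _) (by linarith)
    rcases lt_trichotomy (u k) 0 with hlt | heq | hgt
    · have := key (fun j => -u j) (hneg u hu) (by simpa using hlt) (by rw [pair_neg, hz]; simp)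
      rwa [pair_neg, abs_neg] at this
    · have h1 : pair (k + 1) u s = pair k u s := by rw [pair_succ, heq]; simp
      have h2 : pair (k + 1) u e = pair k u e := by rw [pair_succ, heq]; simp
      rw [h1] at hz
      rw [h2]
      exact (h.zero u (fun j => (hu j).trans hUk) hz).trans
        (mul_le_mul_of_nonneg_left hD1 (by linarith))
    · exact key u hu hgt hz
  · rcases (Nat.lt_succ_iff.1 hj).lt_or_eq with hlt | rfl
    · exact (h.near j hlt).trans (P.R_mono (Nat.le_succ k))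
    · exact W.abs_le ha
  · rw [P.Db_step]
    exact hD2.trans (mul_le_mul_of_nonneg_left h.D_le (by positivity))

theorem Valid.inv {m : ℕ} {s e D : ℕ → ℝ} (h : Valid P m s e D) (hm : m ≤ n) :
    ∀ k ≤ m, Inv P k s e (D k) := by
  intro k
  induction k with
  | zero =>
    intro _
    refine ⟨fun u _ hpos => ?_, fun u _ _ => ?_, fun j hj => by omega, h.1.ge, ?_⟩
    · simp [pair] at hpos
    · have := P.Γ_one
      simp only [pair, range_zero, sum_empty, abs_zero, h.1]; linarith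
    · rw [h.1, P.Db_zero]
  | succ k ih =>
    intro hk
    exact (ih (by omega)).step (by omega) (h.2 k (by omega))

theorem Valid.wallHyp {m : ℕ} {s e D : ℕ → ℝ} (h : Valid P m s e D) {k : ℕ} (hk : k ≤ m)
    (hkn : k < n) (hm : m ≤ n) :
    WallHyp (Lset P k s e) (Tset k s e) (P.Λ (k + 1)) P.Γ (P.g k / P.U (k + 1) ^ 2)
      (n * P.U (k + 1) * P.R k) (D k) (P.Db k) (P.g (k + 1)) (P.R (k + 1)) :=
  (h.inv hm k hk).wallHyp hkn

theorem Valid.mono {m m' : ℕ} {s e D : ℕ → ℝ} (h : Valid P m s e D) (hm : m' ≤ m) :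
    Valid P m' s e D := ⟨h.1, fun k hk => h.2 k (by omega)⟩

theorem AdmAt.congr {k : ℕ} {s e s' e' : ℕ → ℝ} {D a b c : ℝ} (h : AdmAt P k s e D a b c)
    (hs : ∀ j < k, s j = s' j) (he : ∀ j < k, e j = e' j) : AdmAt P k s' e' D a b c := by
  have h1 : Lset P k s' e' = Lset P k s e := by
    ext p
    simp only [Lset, Set.mem_ofPred_eq, pair_congr _ hs, pair_congr _ he]
  have h2 : Tset k s' e' = Tset k s e := by
    ext p
    simp only [Tset, Set.mem_ofPred_eq]
    constructor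
    · rintro ⟨j, hj, rfl⟩; exact ⟨j, hj, by rw [hs j (by omega), he j (by omega)]⟩
    · rintro ⟨j, hj, rfl⟩; exact ⟨j, hj, by rw [hs j (by omega), he j (by omega)]⟩
  unfold AdmAt
  rw [h1, h2]; exact h

theorem Valid.extend {m : ℕ} {s e D : ℕ → ℝ} (h : Valid P m s e D) {a b c : ℝ}
    (ha : AdmAt P m s e (D m) a b c) :
    Valid P (m + 1) (Function.update s m a) (Function.update e m b)
      (Function.update D (m + 1) c) := by
  refine ⟨by rw [Function.update_of_ne (by omega)]; exact h.1, fun k hk => ?_⟩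
  have hs : ∀ j < k, s j = Function.update s m a j := fun j hj => by
    rw [Function.update_of_ne (by omega)]
  have he : ∀ j < k, e j = Function.update e m b j := fun j hj => by
    rw [Function.update_of_ne (by omega)]
  rcases (Nat.lt_succ_iff.1 hk).lt_or_eq with hlt | rfl
  · rw [Function.update_of_ne (by omega), Function.update_of_ne (by omega),
      Function.update_of_ne (by omega), Function.update_of_ne (by omega)]
    exact (h.2 k hlt).congr hs he
  · rw [Function.update_of_ne (by omega), Function.update_self, Function.update_self,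
      Function.update_self]
    exact ha.congr hs he

theorem Valid.replace {k : ℕ} {s e D : ℕ → ℝ} (h : Valid P k s e D) (hk : k < n) {a b c : ℝ}
    (ha : AdmAt P k s e (D k) a b c) :
    ∃ s' e' D' : ℕ → ℝ, Valid P n s' e' D' ∧ (∀ j < k, s' j = s j ∧ e' j = e j) ∧
      ∀ j, k ≤ j → j < n → s' j = a ∧ e' j ≤ b := by
  have key : ∀ m, k + 1 ≤ m → m ≤ n → ∃ s' e' D' : ℕ → ℝ, Valid P m s' e' D' ∧
      (∀ j < k, s' j = s j ∧ e' j = e j) ∧ ∀ j, k ≤ j → j < m → s' j = a ∧ e' j ≤ b := by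
    intro m hm
    induction m, hm using Nat.le_induction with
    | base =>
      intro _
      refine ⟨_, _, _, h.extend ha, fun j hj => ?_, fun j hj hj' => ?_⟩
      · rw [Function.update_of_ne (by omega), Function.update_of_ne (by omega)]
        exact ⟨rfl, rfl⟩
      · have : j = k := by omega
        subst this
        simp
    | succ m hm ih =>
      intro hmn
      obtain ⟨s', e', D', hv, h1, h2⟩ := ih (by omega)
      have W := hv.wallHyp le_rfl (by omega) (by omega)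
      have hT : (s' (m - 1), e' (m - 1)) ∈ Tset m s' e' := ⟨m - 1, by omega, rfl⟩
      have hA := W.tie hT
      have hgap := W.gap hA hT
      refine ⟨_, _, _, hv.extend hA, fun j hj => ?_, fun j hj hj' => ?_⟩
      · rw [Function.update_of_ne (by omega), Function.update_of_ne (by omega)]
        exact h1 j hj
      · rcases (Nat.lt_succ_iff.1 hj').lt_or_eq with hlt | rfl
        · rw [Function.update_of_ne (by omega), Function.update_of_ne (by omega)]
          exact h2 j hj hlt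
        · rw [Function.update_self, Function.update_self]
          have h3 := h2 (j - 1) (by omega) (by omega)
          simp only at hgap ⊢
          exact ⟨h3.1, by linarith [h3.2]⟩
  exact key n hk le_rfl

theorem Valid.s_anti {s e D : ℕ → ℝ} (h : Valid P n s e D) {i j : ℕ} (hij : i ≤ j)
    (hj : j < n) : s j ≤ s i := by
  induction j, hij using Nat.le_induction with
  | base => exact le_rfl
  | succ j hij ih =>
    exact ((h.2 (j + 1) hj).1 (s j, e j) ⟨j, rfl, rfl⟩).trans (ih (by omega))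

theorem Valid.D_mono {s e D : ℕ → ℝ} (h : Valid P n s e D) {i j : ℕ} (hij : i ≤ j)
    (hj : j ≤ n) : D i ≤ D j := by
  induction j, hij using Nat.le_induction with
  | base => exact le_rfl
  | succ j hij ih =>
    have W := h.wallHyp (k := j) (by omega) (by omega) le_rfl
    exact (ih (by omega)).trans (W.D_le (h.2 j (by omega))).1

end Vale.Agent.P072
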